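import Vale.Agent.P032.S5.H783.Frozen2
import Vale.Agent.P032.Six.Star
import Vale.Agent.P032.H180.Ring

/-!
# P032, block (L-6): the odd winding number at a three-coloured point of `X`
-/

open Set Filter Topology Metric

noncomputable section

namespace Vale.Agent.P032.S5.H783

open Vale.Agent.P032.Six
open Vale.Agent.P032.H180 (Frz om f2 ring_odd_of polar_odd)

variable {U : Fin 6 → Set ℂ} {K : ℂ → Set (Fin 6)}

/-- the reduced palettes are a carrier -/
theorem car_Kst (h : Mx U) : Car U (Kst U) where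
  onX := fun _ hx => Kst_XX hx
  offX := fun _ hx _ hi => h.Kst_mem hx hi
  usc := Kst_nhd U
  ne := h.Kst_nonempty

theorem om_eq : om = cis (Real.pi / 3) := by
  unfold om cis
  congr 1

/-- no frozen circle about a three-coloured point of `X` -/
theorem not_Frz (h : Mx U) (hK : Car U K) {v : ℂ} (hv : v ∈ XX U) (h3 : (Pal U v).ncard = 3)
    (hle : ∀ y, dist y v = 1 → y ∈ XX U → (Pal U y).ncard ≤ 3) {col : Fin 3 → Fin 6}
    (hcol : ∀ i, i ∉ Pal U v ↔ ∃ l, i = col l) (hinj : Function.Injective col) :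
    ¬ Frz v K col := by
  classical
  rintro ⟨s, hs, hfr⟩
  rw [om_eq] at hfr
  set σ : Fin 6 → Fin 6 := fun i => if hi : ∃ l, i = col l then col (hi.choose + s) else i with hσ
  have hσc : ∀ l, σ (col l) = col (l + s) := by
    intro l
    have hi : ∃ l', col l = col l' := ⟨l, rfl⟩
    have h1 : hi.choose = l := (hinj hi.choose_spec).symm
    simp only [hσ]
    rw [dif_pos hi, h1]
  have hfr' : ∀ y, dist y v = 1 → ∀ i, i ∉ Pal U v →
      (i ∈ K y ↔ σ i ∈ K (v + cis (Real.pi / 3) * (y - v))) := by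
    intro y hy i hi
    obtain ⟨l, rfl⟩ := (hcol i).1 hi
    rw [hσc]
    exact hfr y hy l
  have hcov : ∀ i, i ∉ Pal U v ↔ i = col 0 ∨ i = col 1 ∨ i = col 2 := by
    intro i
    rw [hcol]
    constructor
    · rintro ⟨l, rfl⟩
      fin_cases l
      · exact Or.inl rfl
      · exact Or.inr (Or.inl rfl)
      · exact Or.inr (Or.inr rfl)
    · rintro (rfl | rfl | rfl) <;> exact ⟨_, rfl⟩
  have h01 : col 0 ≠ col 1 := fun h5 => absurd (hinj h5) (by decide)
  have h12 : col 1 ≠ col 2 := fun h5 => absurd (hinj h5) (by decide)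
  have h02 : col 0 ≠ col 2 := fun h5 => absurd (hinj h5) (by decide)
  rcases hs with rfl | rfl
  · exact frozen h hK hv h3 hle hcov h01 h12 h02 σ (by rw [hσc]; rfl) (by rw [hσc]; rfl)
      (by rw [hσc]; rfl) hfr'
  · refine frozen h hK hv h3 hle (c := col 0) (d := col 2) (e := col 1) (fun i => ?_) h02 h12.symm
      h01 σ (by rw [hσc]; rfl) (by rw [hσc]; rfl) (by rw [hσc]; rfl) hfr'
    rw [hcov]
    tauto

/-- hypotheses of the winding lemmas -/
theorem ring_hyps (h : Mx U) (hK : Car U K) {v : ℂ} (hv : v ∈ XX U) (h3 : (Pal U v).ncard = 3)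
    (hle : ∀ y, dist y v = 1 → y ∈ XX U → (Pal U y).ncard ≤ 3) {col : Fin 3 → Fin 6}
    (hcol : ∀ i, i ∉ Pal U v ↔ ∃ l, i = col l) :
    (∀ y, dist y v = 1 → ∀ᶠ z in 𝓝[Metric.sphere v 1] y, ∀ l, col l ∈ K z → col l ∈ K y) ∧
    (∀ y, dist y v = 1 → ∃ l, col l ∈ K y) ∧
    (∀ y, dist y v = 1 → ∃ l, col l ∉ K y) ∧
    (∀ y z, dist y v = 1 → dist z v = 1 → dist y z = 1 →
      ¬ ∀ l, col l ∈ K y → col l ∈ K z) := by
  refine ⟨fun y _ => ?_, fun y hy => ?_, fun y hy => ?_, fun y z hy hz hyz hcon => ?_⟩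
  · filter_upwards [mem_nhdsWithin_of_mem_nhds (hK.usc y)] with z hz l hl
    exact hz hl
  · obtain ⟨i, hi, hi'⟩ := Car.Q_ne h hK hv h3.le hy
    obtain ⟨l, rfl⟩ := (hcol i).1 hi'
    exact ⟨l, hi⟩
  · obtain ⟨i, hi, hi'⟩ := Car.Q_ne_compl h hK hv h3 hle hy
    obtain ⟨l, rfl⟩ := (hcol i).1 hi
    exact ⟨l, hi'⟩
  · refine Car.R60 h hK hv h3 hle hy hz hyz ?_
    rintro i ⟨hi, hi'⟩
    obtain ⟨l, rfl⟩ := (hcol i).1 hi'
    exact hcon l hi

/-- **(L-6)**, fine cyclic sequences: the number of `{col 0, col 1}`-steps is odd -/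
theorem ringL6 (h : Mx U) (hK : Car U K) {v : ℂ} (hv : v ∈ XX U) (h3 : (Pal U v).ncard = 3)
    (hle : ∀ y, dist y v = 1 → y ∈ XX U → (Pal U y).ncard ≤ 3) {col : Fin 3 → Fin 6}
    (hcol : ∀ i, i ∉ Pal U v ↔ ∃ l, i = col l) (hinj : Function.Injective col) :
    ∃ δ > 0, ∀ (n : ℕ) (s : ℕ → ℝ) (lab : ℕ → Fin 3), (∀ k ≤ n, s k ∈ Icc (0 : ℝ) 6) → s 0 = 0 →
      s n = 6 → (∀ k < n, |s k - s (k + 1)| < δ) → (∀ k ≤ n, col (lab k) ∈ K (Vale.Agent.P032.H180.pt v (s k))) →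
      lab n = lab 0 → ∑ k ∈ Finset.range n, f2 (lab k) (lab (k + 1)) = 1 := by
  obtain ⟨a1, a2, a3, a4⟩ := ring_hyps h hK hv h3 hle hcol
  exact ring_odd_of a1 a2 a3 a4 (not_Frz h hK hv h3 hle hcol hinj)

/-- **(L-6)**, polar ring -/
theorem polarL6 (h : Mx U) (hK : Car U K) {v : ℂ} (hv : v ∈ XX U) (h3 : (Pal U v).ncard = 3)
    (hle : ∀ y, dist y v = 1 → y ∈ XX U → (Pal U y).ncard ≤ 3) {col : Fin 3 → Fin 6}
    (hcol : ∀ i, i ∉ Pal U v ↔ ∃ l, i = col l) (hinj : Function.Injective col) :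
    ∃ N : ℕ, ∀ n : ℕ, N ≤ n → ∀ lab : ℕ → Fin 3,
      (∀ k ≤ n, col (lab k) ∈ K (v + Complex.exp ((2 * Real.pi * k / n : ℝ) * Complex.I))) →
      lab n = lab 0 → ∑ k ∈ Finset.range n, f2 (lab k) (lab (k + 1)) = 1 := by
  obtain ⟨a1, a2, a3, a4⟩ := ring_hyps h hK hv h3 hle hcol
  exact polar_odd a1 a2 a3 a4 (not_Frz h hK hv h3 hle hcol hinj)

/-- **(L-6)** with labels in `Fin 6`: for every pair `c, d` outside `Pal v`, every fine polar ring
of labels in `K \ Pal v` has an odd number of `c|d`-steps -/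
theorem oddL6 (h : Mx U) (hK : Car U K) {v : ℂ} (hv : v ∈ XX U) (h3 : (Pal U v).ncard = 3)
    (hle : ∀ y, dist y v = 1 → y ∈ XX U → (Pal U y).ncard ≤ 3) {c d : Fin 6}
    (hc : c ∉ Pal U v) (hd : d ∉ Pal U v) (hcd : c ≠ d) :
    ∃ N : ℕ, ∀ n : ℕ, N ≤ n → ∀ lab : ℕ → Fin 6,
      (∀ k ≤ n, lab k ∈ K (v + Complex.exp ((2 * Real.pi * k / n : ℝ) * Complex.I)) ∧
        lab k ∉ Pal U v) → lab n = lab 0 →
      Odd ((Finset.range n).filter fun k =>
        (lab k = c ∧ lab (k + 1) = d) ∨ (lab k = d ∧ lab (k + 1) = c)).card := by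
  classical
  -- the third colour
  have h4 : ((Pal U v)ᶜ).ncard = 3 := by rw [Set.ncard_compl, h3]; simp
  have h5 : ∃ e, e ∉ Pal U v ∧ e ≠ c ∧ e ≠ d := by
    by_contra hcon
    push Not at hcon
    have h6 : (Pal U v)ᶜ ⊆ {c, d} := by
      intro i hi
      by_cases hic : i = c
      · exact Or.inl hic
      · exact Or.inr (hcon i hi hic)
    have h7 := Set.ncard_le_ncard h6 (Set.toFinite _)
    rw [h4, Set.ncard_pair hcd] at h7
    omega
  obtain ⟨e, he, hec, hed⟩ := h5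
  set col : Fin 3 → Fin 6 := ![c, d, e] with hcoldef
  have hcol : ∀ i, i ∉ Pal U v ↔ ∃ l, i = col l := by
    intro i
    constructor
    · intro hi
      rcases cover_compl h3 hc hd he hcd hed.symm hec.symm hi with rfl | rfl | rfl
      · exact ⟨0, rfl⟩
      · exact ⟨1, rfl⟩
      · exact ⟨2, rfl⟩
    · rintro ⟨l, rfl⟩
      fin_cases l
      · exact hc
      · exact hd
      · exact he
  have hinj : Function.Injective col := by
    intro a b hab
    fin_cases a <;> fin_cases b <;> simp_all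
  obtain ⟨N, hN⟩ := polarL6 h hK hv h3 hle hcol hinj
  refine ⟨N, fun n hn lab hlab hper => ?_⟩
  choose! l hl using fun k (hk : k ≤ n) => (hcol (lab k)).1 (hlab k hk).2
  have hsum := hN n hn l (fun k hk => by rw [← hl k hk]; exact (hlab k hk).1) (hinj (by
    rw [← hl n le_rfl, ← hl 0 (Nat.zero_le _)]; exact hper))
  rw [← ZMod.natCast_eq_one_iff_odd, Finset.card_filter, Nat.cast_sum, ← hsum]
  refine Finset.sum_congr rfl fun k hk => ?_
  rw [Finset.mem_range] at hk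
  have e1 := hl k hk.le
  have e2 := hl (k + 1) hk
  rw [e1, e2]
  have hi : ∀ a b, col a = col b ↔ a = b := fun a b => hinj.eq_iff
  have hc0 : c = col 0 := rfl
  have hd1 : d = col 1 := rfl
  rw [hc0, hd1]
  simp only [hi]
  generalize l k = a
  generalize l (k + 1) = b
  unfold f2
  fin_cases a <;> fin_cases b <;> simp

end Vale.Agent.P032.S5.H783
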