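import Vale.Agent.P032.S5.H783.L6

/-!
# P032, block (L-6): the odd winding number at three-coloured points off `X`
-/

open Set Filter Topology Metric

noncomputable section

namespace Vale.Agent.P032.S5.H783

open Vale.Agent.P032.Six
open Vale.Agent.P032.H180 (Frz om f2 ring_odd_of polar_odd)

variable {U : Fin 6 → Set ℂ} {K : ℂ → Set (Fin 6)}

/-- the complement of a set of three colours -/
theorem cover_compl' {T : Set (Fin 6)} (h3 : T.ncard = 3) {a b c : Fin 6} (ha : a ∉ T)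
    (hb : b ∉ T) (hc : c ∉ T) (hab : a ≠ b) (hbc : b ≠ c) (hac : a ≠ c) {i : Fin 6}
    (hi : i ∉ T) : i = a ∨ i = b ∨ i = c := by
  have h4 : (Tᶜ).ncard = 3 := by
    rw [Set.ncard_compl, h3]; simp
  exact three_cover h4 ha hb hc hab hbc hac hi

/-- the data on a frozen circle: a pure arc which ends at a two-coloured point -/
theorem frozen_data {T : Set (Fin 6)} {v : ℂ} (h3 : T.ncard = 3)
    (husc0 : ∀ x, ∀ᶠ z in 𝓝 x, K z ⊆ K x)
    (hQne0 : ∀ y, dist y v = 1 → ∃ i, i ∉ T ∧ i ∈ K y)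
    (hQall0 : ∀ y, dist y v = 1 → ∃ i, i ∉ T ∧ i ∉ K y) {c d e : Fin 6}
    (hcov : ∀ i, i ∉ T ↔ i = c ∨ i = d ∨ i = e) (hcd : c ≠ d) (hde : d ≠ e) (hce : c ≠ e)
    (σ : Fin 6 → Fin 6) (hσc : σ c = d) (hσd : σ d = e) (hσe : σ e = c)
    (hfr : ∀ y, dist y v = 1 → ∀ i, i ∉ T →
      (i ∈ K y ↔ σ i ∈ K (v + cis (Real.pi / 3) * (y - v)))) :
    ∃ (θa θ0 : ℝ) (cc : ℕ → Fin 6), θa < θ0 ∧ θ0 - θa ≤ 1 / 2 ∧ (∀ k, cc k ∉ T) ∧
      (∀ k, cc k ≠ cc (k + 1)) ∧ (∀ k, cc k ≠ cc (k + 2)) ∧ (∀ k, cc (k + 3) = cc k) ∧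
      (∀ k, cc k ∈ K (yy v θ0 k)) ∧ (∀ k, ∀ θ ∈ Icc θa θ0, cc k ∈ K (yy v θ k)) ∧
      ((∀ k, cc (k + 1) ∈ K (yy v θ0 k) ∧ cc (k + 2) ∉ K (yy v θ0 k)) ∨
        (∀ k, cc (k + 2) ∈ K (yy v θ0 k) ∧ cc (k + 1) ∉ K (yy v θ0 k))) := by
  have hpi := Real.pi_gt_three
  -- facts on `σ`
  have hσT : ∀ i, i ∉ T → σ i ∉ T := by
    intro i hi
    rcases (hcov i).1 hi with rfl | rfl | rfl
    · rw [hσc]; exact (hcov _).2 (Or.inr (Or.inl rfl))
    · rw [hσd]; exact (hcov _).2 (Or.inr (Or.inr rfl))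
    · rw [hσe]; exact (hcov _).2 (Or.inl rfl)
  have hσ1 : ∀ i, i ∉ T → i ≠ σ i := by
    intro i hi
    rcases (hcov i).1 hi with rfl | rfl | rfl
    · rw [hσc]; exact hcd
    · rw [hσd]; exact hde
    · rw [hσe]; exact hce.symm
  have hσ2 : ∀ i, i ∉ T → i ≠ σ (σ i) := by
    intro i hi
    rcases (hcov i).1 hi with rfl | rfl | rfl
    · rw [hσc, hσd]; exact hce
    · rw [hσd, hσe]; exact hcd.symm
    · rw [hσe, hσc]; exact hde.symm
  have hσ3 : ∀ i, i ∉ T → σ (σ (σ i)) = i := by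
    intro i hi
    rcases (hcov i).1 hi with rfl | rfl | rfl
    · rw [hσc, hσd, hσe]
    · rw [hσd, hσe, hσc]
    · rw [hσe, hσc, hσd]
  have hσcov : ∀ i j, i ∉ T → j ∉ T → j = i ∨ j = σ i ∨ j = σ (σ i) := by
    intro i j hi hj
    exact cover_compl' h3 hi (hσT i hi) (hσT _ (hσT i hi)) (hσ1 i hi) (hσ1 _ (hσT i hi))
      (hσ2 i hi) hj
  -- the sets on the circle
  have hfr' : ∀ θ k i, i ∉ T → (i ∈ K (yy v θ k) ↔ σ i ∈ K (yy v θ (k + 1))) := by
    intro θ k i hi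
    rw [yy_succ]
    exact hfr _ (dist_yy v θ k) i hi
  have hcis : ∀ θ, v + cis θ = yy v θ 0 := by intro θ; simp [yy]
  have hQne : ∀ θ, ∃ i, i ∉ T ∧ i ∈ K (yy v θ 0) := by
    intro θ
    exact hQne0 _ (dist_yy v θ 0)
  have hQall : ∀ θ, ∃ i, i ∉ T ∧ i ∉ K (yy v θ 0) := fun θ =>
    hQall0 _ (dist_yy v θ 0)
  have husc : ∀ θ, ∀ᶠ θ' in 𝓝 θ, K (yy v θ' 0) ⊆ K (yy v θ 0) := fun θ =>
    (continuous_yy v 0).continuousAt.eventually (husc0 (yy v θ 0))
  -- a pure point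
  have hpure : ∃ θ m, m ∉ T ∧ ∀ i, i ∉ T → i ∈ K (yy v θ 0) → i = m := by
    by_contra hcon
    push Not at hcon
    -- two colours everywhere
    obtain ⟨i, hi, hi0⟩ := hQall 0
    have hclopen : IsClopen {θ | i ∉ K (yy v θ 0)} := by
      constructor
      · rw [← isOpen_compl_iff, isOpen_iff_mem_nhds]
        intro θ hθ
        have hθ : i ∈ K (yy v θ 0) := not_not.1 hθ
        filter_upwards [husc θ] with θ' hθ' hcon2
        -- `K θ'` has two colours outside, both different from `i`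
        have hcon2 : i ∉ K (yy v θ' 0) := hcon2
        obtain ⟨a, ha, ha'⟩ := hQne θ'
        obtain ⟨b, hb, hb', hba⟩ := hcon θ' a ha
        obtain ⟨m, hm, hm'⟩ := hQall θ
        rcases cover_compl' h3 hi ha hb (fun h5 => hcon2 (h5 ▸ ha')) hba.symm
          (fun h5 => hcon2 (h5 ▸ hb')) hm with h6 | h6 | h6
        · exact hm' (h6 ▸ hθ)
        · exact hm' (h6 ▸ hθ' ha')
        · exact hm' (h6 ▸ hθ' hb')
      · rw [isOpen_iff_mem_nhds]
        intro θ hθ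
        have hθ : i ∉ K (yy v θ 0) := hθ
        filter_upwards [husc θ] with θ' hθ' hcon2
        exact hθ (hθ' hcon2)
    have huniv : {θ | i ∉ K (yy v θ 0)} = univ := hclopen.eq_univ ⟨0, hi0⟩
    have hall : ∀ θ, i ∉ K (yy v θ 0) := fun θ => by
      have : θ ∈ {θ | i ∉ K (yy v θ 0)} := by rw [huniv]; trivial
      exact this
    -- then `σ i` is absent as well
    have h1 : σ i ∉ K (yy v 0 1) := fun h5 => by
      have := (hfr' 0 0 i hi).2 h5
      exact hall 0 this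
    rw [show (1 : ℕ) = 0 + 1 from rfl, ← yy_shift] at h1
    obtain ⟨a, ha, ha'⟩ := hQne (0 + Real.pi / 3)
    obtain ⟨b, hb, hb', hba⟩ := hcon (0 + Real.pi / 3) a ha
    have hi1 := hall (0 + Real.pi / 3)
    have hcase : ∀ j, j ∉ T → j ∈ K (yy v (0 + Real.pi / 3) 0) → j = σ (σ i) := by
      intro j hj hj'
      rcases hσcov i j hi hj with h6 | h6 | h6
      · exact absurd (h6 ▸ hj') hi1
      · exact absurd (h6 ▸ hj') h1
      · exact h6
    exact hba ((hcase b hb hb').trans (hcase a ha ha').symm)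
  obtain ⟨θ1, m, hm, hm1⟩ := hpure
  -- first impure parameter
  set S := {θ | θ1 ≤ θ ∧ ∃ i, i ∉ T ∧ i ≠ m ∧ i ∈ K (yy v θ 0)} with hS
  have hSclosed : IsClosed S := by
    rw [← isOpen_compl_iff, isOpen_iff_mem_nhds]
    intro θ hθ
    by_cases hle1 : θ1 ≤ θ
    · have hθ2 : ∀ i, i ∉ T → i ≠ m → i ∉ K (yy v θ 0) := by
        intro i hi him hik
        exact hθ ⟨hle1, i, hi, him, hik⟩
      filter_upwards [husc θ] with θ' hθ'
      rintro ⟨-, i, hi, him, hik⟩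
      exact hθ2 i hi him (hθ' hik)
    · push Not at hle1
      filter_upwards [Iio_mem_nhds hle1] with θ' hθ'
      rintro ⟨h5, -⟩
      have hθ' : θ' < θ1 := hθ'
      linarith
  have hmK1 : m ∈ K (yy v θ1 0) := by
    obtain ⟨i, hi, hi'⟩ := hQne θ1
    rwa [← hm1 i hi hi']
  have hSne : S.Nonempty := by
    refine ⟨θ1 + Real.pi / 3, by linarith, σ m, hσT m hm, (hσ1 m hm).symm, ?_⟩
    rw [yy_shift]
    exact (hfr' θ1 0 m hm).1 hmK1
  have hSbdd : BddBelow S := ⟨θ1, fun θ hθ => hθ.1⟩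
  set θ0 := sInf S with hθ0
  have hθ0S : θ0 ∈ S := hSclosed.csInf_mem hSne hSbdd
  obtain ⟨h10, m', hm', hmm', hm'K⟩ := hθ0S
  have h10' : θ1 < θ0 := by
    rcases h10.lt_or_eq with h5 | h5
    · exact h5
    · exfalso
      rw [← h5] at hm'K
      exact hmm' (hm1 m' hm' hm'K)
  have hpureI : ∀ θ, θ1 ≤ θ → θ < θ0 → m ∈ K (yy v θ 0) := by
    intro θ hθ1 hθ2
    have hnot : θ ∉ S := fun h5 => absurd (csInf_le hSbdd h5) (not_le.2 hθ2)
    obtain ⟨i, hi, hi'⟩ := hQne θ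
    by_cases him : i = m
    · exact him ▸ hi'
    · exact absurd ⟨hθ1, i, hi, him, hi'⟩ hnot
  have hmK0 : m ∈ K (yy v θ0 0) := by
    have h5 : ∀ᶠ θ in 𝓝[<] θ0, K (yy v θ 0) ⊆ K (yy v θ0 0) :=
      mem_nhdsWithin_of_mem_nhds (husc θ0)
    have h6 : ∀ᶠ θ in 𝓝[<] θ0, θ1 < θ := mem_nhdsWithin_of_mem_nhds (Ioi_mem_nhds h10')
    obtain ⟨θ, h7, h8, h9⟩ := (h5.and (h6.and self_mem_nhdsWithin)).exists
    exact h7 (hpureI θ h8.le h9)
  -- the left end of the arc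
  set θa := max θ1 (θ0 - 1 / 2) with hθa
  have ha0 : θa < θ0 := max_lt h10' (by linarith)
  have ha1 : θ0 - θa ≤ 1 / 2 := by
    have := le_max_right θ1 (θ0 - 1 / 2); linarith
  have ha2 : θ1 ≤ θa := le_max_left _ _
  -- iterates
  set cc : ℕ → Fin 6 := fun k => σ^[k] m with hcc
  have hcs : ∀ k, cc (k + 1) = σ (cc k) := fun k => Function.iterate_succ_apply' σ k m
  have hcT : ∀ k, cc k ∉ T := by
    intro k
    induction k with
    | zero => exact hm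
    | succ k ih => rw [hcs]; exact hσT _ ih
  have hc1 : ∀ k, cc k ≠ cc (k + 1) := fun k => by rw [hcs]; exact hσ1 _ (hcT k)
  have hc2 : ∀ k, cc k ≠ cc (k + 2) := fun k => by
    rw [show k + 2 = k + 1 + 1 from rfl, hcs, hcs]; exact hσ2 _ (hcT k)
  have hc3 : ∀ k, cc (k + 3) = cc k := fun k => by
    rw [show k + 3 = k + 1 + 1 + 1 from rfl, hcs, hcs, hcs]; exact hσ3 _ (hcT k)
  have hiter : ∀ θ k j, (cc j ∈ K (yy v θ 0) ↔ cc (j + k) ∈ K (yy v θ k)) := by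
    intro θ k j
    induction k with
    | zero => rfl
    | succ k ih =>
      rw [ih, show j + (k + 1) = (j + k) + 1 from rfl, hcs]
      exact hfr' θ k _ (hcT _)
  have harcK : ∀ k, ∀ θ ∈ Icc θa θ0, cc k ∈ K (yy v θ k) := by
    intro k θ hθ
    have h5 : cc 0 ∈ K (yy v θ 0) := by
      rcases hθ.2.lt_or_eq with h6 | h6
      · exact hpureI θ (ha2.trans hθ.1) h6
      · rw [h6]; exact hmK0
    have := (hiter θ k 0).1 h5
    rwa [Nat.zero_add] at this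
  have hin : ∀ k, cc k ∈ K (yy v θ0 k) := fun k => by
    have := (hiter θ0 k 0).1 hmK0
    rwa [Nat.zero_add] at this
  obtain ⟨q, hq, hq'⟩ := hQall θ0
  -- the two cases
  rcases hσcov m m' hm hm' with h6 | h6 | h6
  · exact absurd h6 hmm'
  · -- `m' = σ m`
    have hm1' : cc 1 ∈ K (yy v θ0 0) := by rw [hcs 0]; exact h6 ▸ hm'K
    have hm2' : cc 2 ∉ K (yy v θ0 0) := by
      rcases hσcov m q hm hq with h7 | h7 | h7
      · exact absurd (h7 ▸ hmK0) hq'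
      · exact absurd (by rw [h7, ← h6]; exact hm'K) hq'
      · rw [show (2 : ℕ) = 1 + 1 from rfl, hcs, hcs 0]; exact h7 ▸ hq'
    refine ⟨θa, θ0, cc, ha0, ha1, hcT, hc1, hc2, hc3, hin, harcK, Or.inl fun k => ⟨?_, ?_⟩⟩
    · have := (hiter θ0 k 1).1 hm1'
      rwa [add_comm] at this
    · intro h8
      apply hm2'
      rw [hiter θ0 k 2, add_comm]; exact h8
  · -- `m' = σ (σ m)`
    have hm2' : cc 2 ∈ K (yy v θ0 0) := by
      rw [show (2 : ℕ) = 1 + 1 from rfl, hcs, hcs 0]; exact h6 ▸ hm'K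
    have hm1' : cc 1 ∉ K (yy v θ0 0) := by
      rcases hσcov m q hm hq with h7 | h7 | h7
      · exact absurd (h7 ▸ hmK0) hq'
      · rw [hcs 0]; exact h7 ▸ hq'
      · exact absurd (by rw [h7, ← h6]; exact hm'K) hq'
    refine ⟨θa, θ0, cc, ha0, ha1, hcT, hc1, hc2, hc3, hin, harcK, Or.inr fun k => ⟨?_, ?_⟩⟩
    · have := (hiter θ0 k 2).1 hm2'
      rwa [add_comm] at this
    · intro h8
      apply hm1'
      rw [hiter θ0 k 1, add_comm]; exact h8


/-- the hypotheses on the circle, for a point `v ∈ ⋂ U a`, `a ∈ T` -/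
theorem off_sub (h : Mx U) {T : Set (Fin 6)} {v : ℂ} (hvT : ∀ a ∈ T, v ∈ U a) {y : ℂ}
    (hy : dist y v = 1) {i : Fin 6} (hi : i ∈ Pal U y) : i ∉ T := fun hiT =>
  h.notMem' (hvT i hiT) (by rw [dist_comm]; exact hy) hi

theorem off_card (h : Mx U) {T : Set (Fin 6)} (h3 : T.ncard = 3) {v : ℂ}
    (hvT : ∀ a ∈ T, v ∈ U a) {y : ℂ} (hy : dist y v = 1) : (Pal U y).ncard ≤ 3 := by
  have h4 : (Tᶜ).ncard = 3 := by rw [Set.ncard_compl, h3]; simp
  rw [← h4]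
  exact Set.ncard_le_ncard (fun i hi => off_sub h hvT hy hi) (Set.toFinite _)

theorem off_R60 (h : Mx U) (hK : Car U K) {T : Set (Fin 6)} (h3 : T.ncard = 3) {v : ℂ}
    (hvT : ∀ a ∈ T, v ∈ U a) {y y2 : ℂ} (hy2 : dist y2 v = 1) (hyy : dist y y2 = 1) :
    ¬ (K y ⊆ K y2) := by
  intro hsub
  obtain ⟨d, hd⟩ := hK.ne y
  have hd2 : d ∈ K y2 := hsub hd
  by_cases hyX : y ∈ XX U
  swap
  · exact h.notMem' (hK.offX y hyX d hd) hyy (hK.sub y2 hd2)
  by_cases hyX2 : y2 ∈ XX U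
  swap
  · exact h.notMem' (hK.offX y2 hyX2 d hd2) (by rw [dist_comm]; exact hyy) (hK.sub y hd)
  rw [hK.onX y hyX, hK.onX y2 hyX2] at hsub
  exact h.not_sub hyX2 hyy (off_card h h3 hvT hy2) hsub

theorem off_ne (h : Mx U) (hK : Car U K) {T : Set (Fin 6)} {v : ℂ}
    (hvT : ∀ a ∈ T, v ∈ U a) {y : ℂ} (hy : dist y v = 1) : ∃ i, i ∉ T ∧ i ∈ K y := by
  obtain ⟨i, hi⟩ := hK.ne y
  exact ⟨i, off_sub h hvT hy (hK.sub y hi), hi⟩

theorem off_all (h : Mx U) (hK : Car U K) {T : Set (Fin 6)} (h3 : T.ncard = 3) {v : ℂ}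
    (hvT : ∀ a ∈ T, v ∈ U a) {y : ℂ} (hy : dist y v = 1) : ∃ i, i ∉ T ∧ i ∉ K y := by
  by_contra hcon
  push Not at hcon
  obtain ⟨q, hqv, hqy, -⟩ := exists_third hy
  exact off_R60 h hK h3 hvT hy hqy fun i hi => hcon i (off_sub h hvT hqv (hK.sub q hi))

/-- **FROZEN** off `X` -/
theorem frozen_off (h : Mx U) (hK : Car U K) {T : Set (Fin 6)} (h3 : T.ncard = 3) {v : ℂ}
    (hvT : ∀ a ∈ T, v ∈ U a) {c d e : Fin 6}
    (hcov : ∀ i, i ∉ T ↔ i = c ∨ i = d ∨ i = e) (hcd : c ≠ d) (hde : d ≠ e) (hce : c ≠ e)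
    (σ : Fin 6 → Fin 6) (hσc : σ c = d) (hσd : σ d = e) (hσe : σ e = c)
    (hfr : ∀ y, dist y v = 1 → ∀ i, i ∉ T →
      (i ∈ K y ↔ σ i ∈ K (v + cis (Real.pi / 3) * (y - v)))) : False := by
  obtain ⟨θa, θ0, cc, -, -, hcT, hc1, hc2, hc3, hin, -, hcase⟩ := frozen_data h3 hK.usc
    (fun y hy => off_ne h hK hvT hy) (fun y hy => off_all h hK h3 hvT hy) hcov hcd hde hce σ
    hσc hσd hσe hfr
  rcases hcase with hcase | hcase
  · have hin' := fun k => (hcase k).1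
    have hout := fun k => (hcase k).2
    have hX : yy v θ0 1 ∈ XX U := by
      by_contra hX
      exact h.notMem' (hK.offX _ hX _ (hin' 1)) (dist_yy_succ v θ0 1) (hK.sub _ (hin 2))
    have hsub : Pal U (yy v θ0 1) ⊆ {cc 1, cc 2} := by
      intro t ht
      rcases cover_compl' h3 (hcT 1) (hcT 2) (hcT 3) (hc1 1) (hc1 2) (hc2 1)
        (off_sub h hvT (dist_yy v θ0 1) ht) with h5 | h5 | h5
      · exact Or.inl h5
      · exact Or.inr h5
      · exfalso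
        rw [← hK.onX _ hX, h5] at ht
        exact hout 1 ht
    exact yy_not_line v θ0 0 (h.lemmaB (x := yy v θ0 1) (y := yy v θ0 0) (y' := yy v θ0 2) hsub
      (by rw [dist_comm]; exact dist_yy_succ v θ0 0) (dist_yy_succ v θ0 1)
      (hK.sub _ (hin' 0)) (hK.sub _ (hin 2)))
  · have hin' := fun k => (hcase k).1
    have hout := fun k => (hcase k).2
    have hin2 : ∀ k, cc k ∈ K (yy v θ0 (k + 1)) := fun k => by
      have := hin' (k + 1)
      rwa [show k + 1 + 2 = k + 3 from rfl, hc3] at this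
    have hX : yy v θ0 1 ∈ XX U := by
      by_contra hX
      exact h.notMem' (hK.offX _ hX _ (hin 1)) (dist_yy_succ v θ0 1) (hK.sub _ (hin2 1))
    have hsub : Pal U (yy v θ0 1) ⊆ {cc 0, cc 1} := by
      intro t ht
      rcases cover_compl' h3 (hcT 0) (hcT 1) (hcT 2) (hc1 0) (hc1 1) (hc2 0)
        (off_sub h hvT (dist_yy v θ0 1) ht) with h5 | h5 | h5
      · exact Or.inl h5
      · exact Or.inr h5
      · exfalso
        rw [← hK.onX _ hX, h5] at ht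
        exact hout 1 ht
    exact yy_not_line v θ0 0 (h.lemmaB (x := yy v θ0 1) (y := yy v θ0 0) (y' := yy v θ0 2) hsub
      (by rw [dist_comm]; exact dist_yy_succ v θ0 0) (dist_yy_succ v θ0 1)
      (hK.sub _ (hin 0)) (hK.sub _ (hin2 1)))

/-- the permutation attached to a frozen circle -/
theorem frz_perm {T : Set (Fin 6)} {v : ℂ} {col : Fin 3 → Fin 6}
    (hcol : ∀ i, i ∉ T ↔ ∃ l, i = col l) (hinj : Function.Injective col) (hF : Frz v K col) :
    ∃ (c d e : Fin 6) (σ : Fin 6 → Fin 6), (∀ i, i ∉ T ↔ i = c ∨ i = d ∨ i = e) ∧ c ≠ d ∧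
      d ≠ e ∧ c ≠ e ∧ σ c = d ∧ σ d = e ∧ σ e = c ∧
      ∀ y, dist y v = 1 → ∀ i, i ∉ T →
      (i ∈ K y ↔ σ i ∈ K (v + cis (Real.pi / 3) * (y - v))) := by
  classical
  obtain ⟨s, hs, hfr⟩ := hF
  rw [om_eq] at hfr
  set σ : Fin 6 → Fin 6 := fun i => if hi : ∃ l, i = col l then col (hi.choose + s) else i with hσ
  have hσc : ∀ l, σ (col l) = col (l + s) := by
    intro l
    have hi : ∃ l', col l = col l' := ⟨l, rfl⟩
    have h1 : hi.choose = l := (hinj hi.choose_spec).symm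
    simp only [hσ]
    rw [dif_pos hi, h1]
  have hfr' : ∀ y, dist y v = 1 → ∀ i, i ∉ T →
      (i ∈ K y ↔ σ i ∈ K (v + cis (Real.pi / 3) * (y - v))) := by
    intro y hy i hi
    obtain ⟨l, rfl⟩ := (hcol i).1 hi
    rw [hσc]
    exact hfr y hy l
  have hcov : ∀ i, i ∉ T ↔ i = col 0 ∨ i = col 1 ∨ i = col 2 := by
    intro i
    rw [hcol]
    constructor
    · rintro ⟨l, rfl⟩
      fin_cases l
      · exact Or.inl rfl
      · exact Or.inr (Or.inl rfl)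
      · exact Or.inr (Or.inr rfl)
    · rintro (rfl | rfl | rfl) <;> exact ⟨_, rfl⟩
  have h01 : col 0 ≠ col 1 := fun h5 => absurd (hinj h5) (by decide)
  have h12 : col 1 ≠ col 2 := fun h5 => absurd (hinj h5) (by decide)
  have h02 : col 0 ≠ col 2 := fun h5 => absurd (hinj h5) (by decide)
  rcases hs with rfl | rfl
  · exact ⟨col 0, col 1, col 2, σ, hcov, h01, h12, h02, by rw [hσc]; rfl, by rw [hσc]; rfl,
      by rw [hσc]; rfl, hfr'⟩
  · refine ⟨col 0, col 2, col 1, σ, fun i => ?_, h02, h12.symm, h01, by rw [hσc]; rfl,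
      by rw [hσc]; rfl, by rw [hσc]; rfl, hfr'⟩
    rw [hcov]
    tauto

theorem not_Frz_off (h : Mx U) (hK : Car U K) {T : Set (Fin 6)} (h3 : T.ncard = 3) {v : ℂ}
    (hvT : ∀ a ∈ T, v ∈ U a) {col : Fin 3 → Fin 6}
    (hcol : ∀ i, i ∉ T ↔ ∃ l, i = col l) (hinj : Function.Injective col) :
    ¬ Frz v K col := by
  intro hF
  obtain ⟨c, d, e, σ, a1, a2, a3, a4, a5, a6, a7, a8⟩ := frz_perm hcol hinj hF
  exact frozen_off h hK h3 hvT a1 a2 a3 a4 σ a5 a6 a7 a8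

/-- the general winding lemma: `T = K v`, on or off `X` -/
theorem genL6 (h : Mx U) (hK : Car U K) {v : ℂ} (h3 : (K v).ncard = 3)
    (hle : ∀ y, dist y v = 1 → y ∈ XX U → (Pal U y).ncard ≤ 3) {col : Fin 3 → Fin 6}
    (hcol : ∀ i, i ∉ K v ↔ ∃ l, i = col l) (hinj : Function.Injective col) :
    (∀ y, dist y v = 1 → ∀ᶠ z in 𝓝[Metric.sphere v 1] y, ∀ l, col l ∈ K z → col l ∈ K y) ∧
    (∀ y, dist y v = 1 → ∃ l, col l ∈ K y) ∧
    (∀ y, dist y v = 1 → ∃ l, col l ∉ K y) ∧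
    (∀ y z, dist y v = 1 → dist z v = 1 → dist y z = 1 →
      ¬ ∀ l, col l ∈ K y → col l ∈ K z) ∧ ¬ Frz v K col := by
  by_cases hv : v ∈ XX U
  · rw [hK.onX v hv] at h3 hcol
    obtain ⟨a1, a2, a3, a4⟩ := ring_hyps h hK hv h3 hle hcol
    exact ⟨a1, a2, a3, a4, not_Frz h hK hv h3 hle hcol hinj⟩
  · have hvT : ∀ a ∈ K v, v ∈ U a := hK.offX v hv
    refine ⟨fun y _ => ?_, fun y hy => ?_, fun y hy => ?_, fun y z hy hz hyz hcon => ?_,
      not_Frz_off h hK h3 hvT hcol hinj⟩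
    · filter_upwards [mem_nhdsWithin_of_mem_nhds (hK.usc y)] with z hz l hl
      exact hz hl
    · obtain ⟨i, hi, hi'⟩ := off_ne h hK hvT hy
      obtain ⟨l, rfl⟩ := (hcol i).1 hi
      exact ⟨l, hi'⟩
    · obtain ⟨i, hi, hi'⟩ := off_all h hK h3 hvT hy
      obtain ⟨l, rfl⟩ := (hcol i).1 hi
      exact ⟨l, hi'⟩
    · refine off_R60 h hK h3 hvT hz hyz ?_
      intro i hi
      obtain ⟨l, rfl⟩ := (hcol i).1 (off_sub h hvT hy (hK.sub y hi))
      exact hcon l hi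

/-- **(L-6)** at all points with `|K v| = 3` (on or off `X`), labels in `Fin 6` -/
theorem oddK (h : Mx U) (hK : Car U K) {v : ℂ} (h3 : (K v).ncard = 3)
    (hle : ∀ y, dist y v = 1 → y ∈ XX U → (Pal U y).ncard ≤ 3) {c d : Fin 6}
    (hc : c ∉ K v) (hd : d ∉ K v) (hcd : c ≠ d) :
    ∃ N : ℕ, ∀ n : ℕ, N ≤ n → ∀ lab : ℕ → Fin 6,
      (∀ k ≤ n, lab k ∈ K (v + Complex.exp ((2 * Real.pi * k / n : ℝ) * Complex.I)) ∧
        lab k ∉ K v) → lab n = lab 0 →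
      ∑ k ∈ Finset.range n, (if (lab k = c ∧ lab (k + 1) = d) ∨ (lab k = d ∧ lab (k + 1) = c)
        then (1 : ZMod 2) else 0) = 1 := by
  classical
  have h4 : ((K v)ᶜ).ncard = 3 := by rw [Set.ncard_compl, h3]; simp
  have h5 : ∃ e, e ∉ K v ∧ e ≠ c ∧ e ≠ d := by
    by_contra hcon
    push Not at hcon
    have h6 : (K v)ᶜ ⊆ {c, d} := by
      intro i hi
      by_cases hic : i = c
      · exact Or.inl hic
      · exact Or.inr (hcon i hi hic)
    have h7 := Set.ncard_le_ncard h6 (Set.toFinite _)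
    rw [h4, Set.ncard_pair hcd] at h7
    omega
  obtain ⟨e, he, hec, hed⟩ := h5
  set col : Fin 3 → Fin 6 := ![c, d, e] with hcoldef
  have hcol : ∀ i, i ∉ K v ↔ ∃ l, i = col l := by
    intro i
    constructor
    · intro hi
      rcases cover_compl' h3 hc hd he hcd hed.symm hec.symm hi with rfl | rfl | rfl
      · exact ⟨0, rfl⟩
      · exact ⟨1, rfl⟩
      · exact ⟨2, rfl⟩
    · rintro ⟨l, rfl⟩
      fin_cases l
      · exact hc
      · exact hd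
      · exact he
  have hinj : Function.Injective col := by
    intro a b hab
    fin_cases a <;> fin_cases b <;> simp_all
  obtain ⟨a1, a2, a3, a4, a5⟩ := genL6 h hK h3 hle hcol hinj
  obtain ⟨N, hN⟩ := polar_odd a1 a2 a3 a4 a5
  refine ⟨N, fun n hn lab hlab hper => ?_⟩
  choose! l hl using fun k (hk : k ≤ n) => (hcol (lab k)).1 (hlab k hk).2
  have hsum := hN n hn l (fun k hk => by rw [← hl k hk]; exact (hlab k hk).1) (hinj (by
    rw [← hl n le_rfl, ← hl 0 (Nat.zero_le _)]; exact hper))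
  refine Eq.trans (Finset.sum_congr rfl fun k hk => ?_) hsum
  rw [Finset.mem_range] at hk
  have e1 := hl k hk.le
  have e2 := hl (k + 1) hk
  rw [e1, e2]
  have hi : ∀ a b, col a = col b ↔ a = b := fun a b => hinj.eq_iff
  have hc0 : c = col 0 := rfl
  have hd1 : d = col 1 := rfl
  rw [hc0, hd1]
  simp only [hi]
  generalize l k = a
  generalize l (k + 1) = b
  unfold f2
  fin_cases a <;> fin_cases b <;> simp

end Vale.Agent.P032.S5.H783
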