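import Vale.Agent.P032.Six.Gap

/-!
# P032, block (L-6), part 1: carriers off `X`, the sixty degree rule (R60)

`Car U K`: a carrier function `K` (palettes of a closed cover which equals `Pal U` on `XX U` and is
subordinate to the open sets off `XX U`).
-/

open Set Filter Topology Metric

noncomputable section

namespace Vale.Agent.P032.S5.H783

open Vale.Agent.P032.Six

/-- a carrier for a maximal family -/
structure Car (U : Fin 6 → Set ℂ) (K : ℂ → Set (Fin 6)) : Prop where
  onX : ∀ x ∈ XX U, K x = Pal U x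
  offX : ∀ x ∉ XX U, ∀ i ∈ K x, x ∈ U i
  usc : ∀ x, ∀ᶠ z in 𝓝 x, K z ⊆ K x
  ne : ∀ x, (K x).Nonempty

variable {U : Fin 6 → Set ℂ} {K : ℂ → Set (Fin 6)}

theorem Car.sub (hK : Car U K) (x : ℂ) : K x ⊆ Pal U x := by
  by_cases hx : x ∈ XX U
  · rw [hK.onX x hx]
  · exact fun i hi => subset_closure (hK.offX x hx i hi)

/-- a point at distance one from `y` -/
theorem exists_third {v y : ℂ} (h : dist y v = 1) :
    ∃ q, dist q v = 1 ∧ dist q y = 1 ∧ v + y ≠ 2 * q := by
  have hn : ‖y - v‖ = 1 := by rw [← dist_eq_norm]; exact h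
  have hs : Real.sqrt 3 ^ 2 = 3 := Real.sq_sqrt (by norm_num)
  set ω : ℂ := ⟨1 / 2, Real.sqrt 3 / 2⟩ with hω
  have h1 : ‖ω‖ = 1 := by
    have : ‖ω‖ ^ 2 = 1 := by
      rw [Complex.sq_norm, Complex.normSq_apply, hω]; nlinarith
    have h0 := norm_nonneg ω
    nlinarith
  have h2 : ‖ω - 1‖ = 1 := by
    have : ‖ω - 1‖ ^ 2 = 1 := by
      rw [Complex.sq_norm, Complex.normSq_apply, hω]; simp; nlinarith
    have h0 := norm_nonneg (ω - 1)
    nlinarith
  refine ⟨v + ω * (y - v), ?_, ?_, ?_⟩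
  · rw [dist_eq_norm, add_sub_cancel_left, norm_mul, h1, hn, mul_one]
  · have : v + ω * (y - v) - y = (ω - 1) * (y - v) := by ring
    rw [dist_eq_norm, this, norm_mul, h2, hn, mul_one]
  · intro hcon
    have h3 : (2 * ω - 1) * (y - v) = 0 := by linear_combination -hcon
    rcases mul_eq_zero.1 h3 with h4 | h4
    · have h5 := congrArg Complex.im h4
      simp [hω] at h5
    · rw [h4] at hn; simp at hn

/-- points of `S(v)` off `XX` carry no colour of `Pal v` -/
theorem Car.disj (h : Mx U) (hK : Car U K) {v y : ℂ} (hy : dist y v = 1) (hyX : y ∉ XX U)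
    {i : Fin 6} (hi : i ∈ K y) : i ∉ Pal U v :=
  h.notMem' (hK.offX y hyX i hi) hy

/-- `Q(y) = K(y) \ Pal v` is nonempty -/
theorem Car.Q_ne (h : Mx U) (hK : Car U K) {v y : ℂ} (hv : v ∈ XX U)
    (h3 : (Pal U v).ncard ≤ 3) (hy : dist y v = 1) : (K y \ Pal U v).Nonempty := by
  by_cases hyX : y ∈ XX U
  · rw [hK.onX y hyX]
    have := h.not_sub hv hy h3
    obtain ⟨i, hi, hi'⟩ := Set.not_subset.1 this
    exact ⟨i, hi, hi'⟩
  · obtain ⟨i, hi⟩ := hK.ne y
    exact ⟨i, hi, Car.disj h hK hy hyX hi⟩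

/-- `Q(y)` is not the whole complement of `Pal v` -/
theorem Car.Q_ne_compl (h : Mx U) (hK : Car U K) {v y : ℂ} (hv : v ∈ XX U)
    (h3 : (Pal U v).ncard = 3)
    (hle : ∀ y, dist y v = 1 → y ∈ XX U → (Pal U y).ncard ≤ 3) (hy : dist y v = 1) :
    ∃ i, i ∉ Pal U v ∧ i ∉ K y := by
  by_contra hcon
  push Not at hcon
  have hcov : ∀ i, i ∈ Pal U v ∨ i ∈ K y := by
    intro i
    by_cases hi : i ∈ Pal U v
    · exact Or.inl hi
    · exact Or.inr (hcon i hi)
  obtain ⟨q, hqv, hqy, hne⟩ := exists_third hy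
  by_cases hyX : y ∈ XX U
  · rw [hK.onX y hyX] at hcov
    -- `q ∈ XX`
    have hqX : q ∈ XX U := by
      intro i hi
      rcases hcov i with h1 | h1
      · exact h.notMem' hi hqv h1
      · exact h.notMem' hi hqy h1
    have hvy : v ≠ y := by
      rintro rfl
      simp at hy
    have a1 := fun s => h.five (u := v) (u' := y) (q := q) hyX (hle y hy hyX) hcov hvy hqv hqy hne s
    have a2 := fun s => h.five (u := y) (u' := v) (q := q) hv h3.le
      (fun i => (hcov i).symm) hvy.symm hqy hqv (by rw [add_comm]; exact hne) s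
    obtain ⟨t1, ht1, ht1v, -⟩ := a1 0
    obtain ⟨t2, ht2, ht2v, ht12⟩ := a1 t1
    obtain ⟨s1, hs1, hs1y, -⟩ := a2 0
    obtain ⟨s2, hs2, hs2y, hs12⟩ := a2 s1
    -- `Pal v` and `Pal y` are disjoint
    have hdis : Disjoint (Pal U v) (Pal U y) := by
      have hun : Pal U v ∪ Pal U y = univ := by
        ext i; simpa using hcov i
      have hc1 : (Pal U v ∪ Pal U y).ncard = 6 := by
        rw [hun, Set.ncard_univ]; simp
      have hc2 := Set.ncard_union_add_ncard_inter (Pal U v) (Pal U y)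
      have hc3 := hle y hy hyX
      rw [Set.disjoint_iff_inter_eq_empty, ← Set.ncard_eq_zero (Set.toFinite _)]
      omega
    have hd : ∀ i j, i ∈ Pal U v → j ∈ Pal U y → i ≠ j := by
      rintro i j hi hj rfl
      exact Set.disjoint_left.1 hdis hi hj
    have h4 : ({t1, t2, s1, s2} : Set (Fin 6)) ⊆ Pal U q := by
      rintro m (rfl | rfl | rfl | rfl) <;> assumption
    have h5 : ({t1, t2, s1, s2} : Set (Fin 6)).ncard = 4 := by
      rw [Set.ncard_insert_of_notMem, Set.ncard_insert_of_notMem, Set.ncard_pair hs12.symm]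
      · rintro (h6 | h6)
        · exact hd _ _ ht2v hs1y h6
        · exact hd _ _ ht2v hs2y h6
      · rintro (h6 | h6 | h6)
        · exact ht12 h6.symm
        · exact hd _ _ ht1v hs1y h6
        · exact hd _ _ ht1v hs2y h6
    have h6 := Set.ncard_le_ncard h4 (Set.toFinite _)
    have h7 := hle q hqv hqX
    omega
  · refine h.not_sub hv hqv h3.le fun m hm => ?_
    rcases hcov m with h1 | h1
    · exact h1
    · exact absurd hm (h.notMem' (hK.offX y hyX m h1) (by rw [dist_comm]; exact hqy))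

theorem ne_of_dist {v y y2 : ℂ} (hy2 : dist y2 v = 1) (hy : dist y v = 1) :
    ¬ (y2 = v ∨ y2 + v = 2 * y) := by
  rintro (h1 | h1)
  · rw [h1] at hy2; simp at hy2
  · have h2 : y2 - v = 2 * (y - v) := by linear_combination h1
    have h3 : dist y2 v = 2 := by
      rw [dist_eq_norm, h2, norm_mul, ← dist_eq_norm, hy]; simp
    linarith

/-- **(R60)**: at distance one on `S(v)` the sets `Q` are incomparable -/
theorem Car.R60 (h : Mx U) (hK : Car U K) {v y y2 : ℂ} (hv : v ∈ XX U)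
    (h3 : (Pal U v).ncard = 3)
    (hle : ∀ y, dist y v = 1 → y ∈ XX U → (Pal U y).ncard ≤ 3) (hy : dist y v = 1)
    (hy2 : dist y2 v = 1) (hyy : dist y y2 = 1) : ¬ (K y \ Pal U v ⊆ K y2) := by
  intro hsub
  obtain ⟨d, hd, hdv⟩ := Car.Q_ne h hK hv h3.le hy
  have hd2 : d ∈ K y2 := hsub ⟨hd, hdv⟩
  by_cases hyX : y ∈ XX U
  swap
  · exact h.notMem' (hK.offX y hyX d hd) hyy (hK.sub y2 hd2)
  by_cases hyX2 : y2 ∈ XX U
  swap
  · exact h.notMem' (hK.offX y2 hyX2 d hd2) (by rw [dist_comm]; exact hyy) (hK.sub y hd)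
  rw [hK.onX y hyX] at hsub hd
  rw [hK.onX y2 hyX2] at hsub hd2
  by_cases h1 : Pal U y ⊆ insert d (Pal U v)
  · exact ne_of_dist hy2 hy (h.lemmaX hv hy h3.le h1 hyy hd2)
  -- a second colour
  obtain ⟨e, he, he'⟩ := Set.not_subset.1 h1
  have hed : e ≠ d := fun h2 => he' (Or.inl h2)
  have hev : e ∉ Pal U v := fun h2 => he' (Or.inr h2)
  have hc := hle y hy hyX
  by_cases h4 : Pal U y ⊆ Pal U y2
  · exact h.not_sub hyX2 hyy (hle y2 hy2 hyX2) h4
  obtain ⟨t, ht, ht'⟩ := Set.not_subset.1 h4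
  have htv : t ∈ Pal U v := by
    by_contra h5
    exact ht' (hsub ⟨ht, h5⟩)
  have htd : t ≠ d := fun h5 => hdv (h5 ▸ htv)
  have hte : t ≠ e := fun h5 => hev (h5 ▸ htv)
  have h6 : Pal U y = {t, d, e} := by
    symm
    apply Set.eq_of_subset_of_ncard_le
    · rintro m (rfl | rfl | rfl) <;> assumption
    · rw [Set.ncard_insert_of_notMem, Set.ncard_pair hed.symm]
      · exact hc
      · rintro (h7 | h7)
        · exact htd h7
        · exact hte h7
    · exact Set.toFinite _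
  have h7 : Pal U y ⊆ insert t (Pal U y2) := by
    rw [h6]
    rintro m (rfl | rfl | rfl)
    · exact Or.inl rfl
    · exact Or.inr hd2
    · exact Or.inr (hsub ⟨he, hev⟩)
  have h8 := h.lemmaX hyX2 hyy (hle y2 hy2 hyX2) h7 (v := v) hy htv
  rcases h8 with h8 | h8
  · rw [h8] at hy2; simp at hy2
  · have h9 : y2 - v = 2 * (y - v) := by linear_combination h8
    have h10 : dist y2 v = 2 := by
      rw [dist_eq_norm, h9, norm_mul, ← dist_eq_norm, hy]; simp
    linarith

end Vale.Agent.P032.S5.H783
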