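import Vale.Agent.P032.S5.H783.Car

/-!
# P032, block (L-6), part 2: one sided lemmas at the six points of a frozen circle
-/

open Set Filter Topology Metric

noncomputable section

namespace Vale.Agent.P032.S5.H783

open Vale.Agent.P032.Six

variable {U : Fin 6 → Set ℂ}

/-- equilateral triangles: `v - a` is `y - a` turned by `± π / 3` -/
theorem circ_param {a v y : ℂ} (h1 : dist v a = 1) (h2 : dist y a = 1) (h3 : dist y v = 1) :
    ∃ κ : ℝ, (κ = 1 ∨ κ = -1) ∧ v - a = (y - a) * cis (κ * (Real.pi / 3)) := by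
  have hs : Real.sqrt 3 ^ 2 = 3 := Real.sq_sqrt (by norm_num)
  have hya : ‖y - a‖ = 1 := by rw [← dist_eq_norm]; exact h2
  have hne : y - a ≠ 0 := by
    intro h; rw [h] at hya; simp at hya
  set u := (v - a) / (y - a) with hu
  have hua : v - a = (y - a) * u := by rw [hu]; field_simp
  have n1 : ‖u‖ = 1 := by
    rw [hu, norm_div, hya, ← dist_eq_norm, h1, div_one]
  have n2 : ‖u - 1‖ = 1 := by
    have : u - 1 = (v - y) / (y - a) := by rw [hu]; field_simp; ring
    rw [this, norm_div, hya, ← dist_eq_norm, dist_comm, h3, div_one]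
  have e1 : u.re ^ 2 + u.im ^ 2 = 1 := by
    have := Complex.sq_norm u; rw [n1, Complex.normSq_apply] at this; nlinarith
  have e2 : (u.re - 1) ^ 2 + u.im ^ 2 = 1 := by
    have := Complex.sq_norm (u - 1)
    rw [n2, Complex.normSq_apply] at this; simp at this; nlinarith
  have e3 : u.re = 1 / 2 := by nlinarith
  have e4 : (u.im - Real.sqrt 3 / 2) * (u.im + Real.sqrt 3 / 2) = 0 := by
    rw [e3] at e1; nlinarith
  rcases mul_eq_zero.1 e4 with e5 | e5
  · refine ⟨1, Or.inl rfl, ?_⟩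
    rw [hua]; congr 1
    apply Complex.ext
    · rw [cis, Complex.exp_ofReal_mul_I_re, one_mul, Real.cos_pi_div_three, e3]
    · rw [cis, Complex.exp_ofReal_mul_I_im, one_mul, Real.sin_pi_div_three]; linarith
  · refine ⟨-1, Or.inr rfl, ?_⟩
    rw [hua]; congr 1
    apply Complex.ext
    · rw [cis, Complex.exp_ofReal_mul_I_re, neg_one_mul, Real.cos_neg, Real.cos_pi_div_three, e3]
    · rw [cis, Complex.exp_ofReal_mul_I_im, neg_one_mul, Real.sin_neg, Real.sin_pi_div_three]
      linarith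

theorem cis_add (s t : ℝ) : cis (s + t) = cis s * cis t := by
  unfold cis
  rw [← Complex.exp_add]
  congr 1
  push_cast; ring

theorem cis_zero : cis 0 = 1 := by simp [cis]

/-- chords of the unit circle -/
theorem norm_cis_sub (s t : ℝ) : ‖cis s - cis t‖ ^ 2 = 2 - 2 * Real.cos (s - t) := by
  rw [Complex.sq_norm, Complex.normSq_apply]
  simp only [Complex.sub_re, Complex.sub_im, cis, Complex.exp_ofReal_mul_I_re,
    Complex.exp_ofReal_mul_I_im]
  rw [Real.cos_sub]
  have h1 := Real.sin_sq_add_cos_sq s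
  have h2 := Real.sin_sq_add_cos_sq t
  nlinarith

theorem norm_cis_sub_le (s t : ℝ) : ‖cis s - cis t‖ ≤ |s - t| := by
  have h1 := norm_cis_sub s t
  have h2 := Real.one_sub_sq_div_two_le_cos (x := s - t)
  have h3 : ‖cis s - cis t‖ ^ 2 ≤ |s - t| ^ 2 := by
    rw [sq_abs]; linarith
  exact le_of_sq_le_sq h3 (abs_nonneg _)
  where
    le_of_sq_le_sq {x y : ℝ} (h : x ^ 2 ≤ y ^ 2) (hy : 0 ≤ y) : x ≤ y := by
      by_contra hc
      push Not at hc
      nlinarith

/-- the points of `S(a)` near `y` -/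
def pt (a y : ℂ) (κ δ : ℝ) : ℂ := a + (y - a) * cis (κ * δ)

theorem pt_zero (a y : ℂ) (κ : ℝ) : pt a y κ 0 = y := by
  simp [pt, cis_zero]

theorem continuous_pt (a y : ℂ) (κ : ℝ) : Continuous (pt a y κ) := by
  unfold pt
  exact continuous_const.add (continuous_const.mul
    (continuous_cis.comp (continuous_const.mul continuous_id)))

theorem dist_pt_a {a y : ℂ} (h2 : dist y a = 1) (κ δ : ℝ) : dist (pt a y κ δ) a = 1 := by
  rw [dist_eq_norm, pt, add_sub_cancel_left, norm_mul, norm_cis, mul_one, ← dist_eq_norm, h2]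

theorem dist_pt_y {a y : ℂ} (h2 : dist y a = 1) {κ : ℝ} (hκ : κ = 1 ∨ κ = -1) (δ : ℝ) :
    dist (pt a y κ δ) y ^ 2 = 2 - 2 * Real.cos δ := by
  have h : pt a y κ δ - y = (y - a) * (cis (κ * δ) - cis 0) := by
    rw [pt, cis_zero]; ring
  rw [dist_eq_norm, h, norm_mul, ← dist_eq_norm, h2, one_mul, norm_cis_sub]
  rcases hκ with rfl | rfl <;> simp

theorem dist_pt_y_le {a y : ℂ} (h2 : dist y a = 1) {κ : ℝ} (hκ : κ = 1 ∨ κ = -1) (δ : ℝ) :
    dist (pt a y κ δ) y ≤ |δ| := by
  have h : pt a y κ δ - y = (y - a) * (cis (κ * δ) - cis 0) := by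
    rw [pt, cis_zero]; ring
  rw [dist_eq_norm, h, norm_mul, ← dist_eq_norm, h2, one_mul]
  refine (norm_cis_sub_le _ _).trans (le_of_eq ?_)
  rcases hκ with rfl | rfl <;> simp

theorem dist_pt_v {a v y : ℂ} (h2 : dist y a = 1) {κ : ℝ} (hκ : κ = 1 ∨ κ = -1)
    (hv : v - a = (y - a) * cis (κ * (Real.pi / 3))) (δ : ℝ) :
    dist (pt a y κ δ) v ^ 2 = 2 - 2 * Real.cos (δ - Real.pi / 3) := by
  have h : pt a y κ δ - v = (y - a) * (cis (κ * δ) - cis (κ * (Real.pi / 3))) := by
    rw [pt]; linear_combination -hv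
  rw [dist_eq_norm, h, norm_mul, ← dist_eq_norm, h2, one_mul, norm_cis_sub]
  rcases hκ with rfl | rfl
  · simp
  · rw [show (-1 : ℝ) * δ - -1 * (Real.pi / 3) = -(δ - Real.pi / 3) by ring, Real.cos_neg]

/-- the parallelogram identity on `S(a)` -/
theorem dist_pt_b {a v y p : ℂ} (h1 : dist v a = 1) (h2 : dist y a = 1) (h3 : dist y v = 1)
    (hp : dist p a = 1) : dist p (v + y - a) ^ 2 = dist p v ^ 2 + dist p y ^ 2 := by
  rw [sq_dist, sq_dist, sq_dist]
  have e1 := sq_dist v a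
  have e2 := sq_dist y a
  have e3 := sq_dist y v
  have e4 := sq_dist p a
  rw [h1] at e1; rw [h2] at e2; rw [h3] at e3; rw [hp] at e4
  simp only [Complex.add_re, Complex.sub_re, Complex.add_im, Complex.sub_im]
  nlinarith

/-- **core**: at a transversal crossing of `S(g)`, `g ∈ U_t`, and `S(a)`, `a ∈ F_c`, there are
points without the colours `c` and `t` -/
theorem core (h : Mx U) {a g p : ℂ} {c t : Fin 6} (hg : g ∈ U t) (hca : c ∈ Pal U a)
    (hpg : dist p g = 1) (hpa : dist p a = 1) (hga : g ≠ a) (hga2 : g + a ≠ 2 * p)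
    {O : Set ℂ} (hO : O ∈ 𝓝 p) : ∃ q ∈ O, c ∉ Pal U q ∧ t ∉ Pal U q := by
  obtain ⟨t0, ht0⟩ := exists_cis (u := p - g) (by rw [← dist_eq_norm]; exact hpg)
  have hp0 : g + cis t0 = p := by rw [← ht0]; ring
  have hc : ContinuousAt (fun s : ℝ => g + cis s) t0 :=
    (continuous_const.add continuous_cis).continuousAt
  have hpre : (fun s : ℝ => g + cis s) ⁻¹' O ∈ 𝓝 t0 := hc.preimage_mem_nhds (by rw [hp0]; exact hO)
  obtain ⟨η, hη, hball⟩ := Metric.mem_nhds_iff.1 hpre
  have hcr : cr (cis t0) (g + cis t0 - a) ≠ 0 := by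
    rw [hp0, ← ht0]
    exact cr_ne hpg hpa hga hga2
  have hcross := crossing (c := g) (q₀ := a) (t0 := t0) (by rw [hp0]; exact hpa) hcr hη
  obtain ⟨w, hw, hwU⟩ := mem_closure_iff_nhds.1 hca _ hcross
  obtain ⟨s, hs, hsw⟩ := hw
  refine ⟨g + cis s, hball (by rw [mem_ball, Real.dist_eq]; exact hs), ?_, ?_⟩
  · exact h.notMem' hwU (by rw [dist_comm]; exact hsw)
  · exact h.notMem' hg (by rw [dist_comm]; exact dist_add_cis g s)

/-- **case A**: if the colour `c'` lives near `y` inside `cl D(b)` then the colour `t` lives near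
`v` outside `D(y)` -/
theorem fzA (h : Mx U) {v y a b : ℂ} {c c' t : Fin 6} (h1 : dist v a = 1) (h2 : dist y a = 1)
    (h3 : dist y v = 1) (hb : b = v + y - a) (hpal : Pal U y ⊆ {c, c', t})
    (hca : c ∈ Pal U a) (hc' : ∀ᶠ p in 𝓝 y, c' ∈ Pal U p → dist p b ≤ 1) :
    ∀ᶠ g in 𝓝 v, t ∈ Pal U g → 1 ≤ dist g y := by
  obtain ⟨κ, hκ, hv⟩ := circ_param h1 h2 h3
  obtain ⟨r, hr, hrp⟩ := Metric.eventually_nhds_iff.1 (hc'.and (pal_nhd U y))
  set η := min (r / 2) 1 with hη
  have hη0 : 0 < η := lt_min (by linarith) one_pos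
  have hηr : η < r := (min_le_left _ _).trans_lt (by linarith)
  have hη1 : η ≤ 1 := min_le_right _ _
  have hpi := Real.pi_gt_three
  -- outward points
  have hout : ∀ δ, -η ≤ δ → δ < 0 → 1 < dist (pt a y κ δ) v := by
    intro δ hδ1 hδ2
    have e1 := dist_pt_v h2 hκ hv δ
    have e2 : Real.cos (δ - Real.pi / 3) < 1 / 2 := by
      rw [← Real.cos_pi_div_three, ← Real.cos_neg (δ - Real.pi / 3)]
      apply Real.cos_lt_cos_of_nonneg_of_le_pi
      · positivity
      · linarith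
      · linarith
    have e3 := dist_nonneg (x := pt a y κ δ) (y := v)
    nlinarith
  have hev1 : ∀ᶠ g in 𝓝 v, 1 < dist (pt a y κ (-η)) g :=
    (continuous_const.dist continuous_id).continuousAt.eventually
      (Ioi_mem_nhds (hout (-η) le_rfl (by linarith)))
  have hev2 : ∀ᶠ g in 𝓝 v, dist g v < 1 / 4 := Metric.ball_mem_nhds v (by norm_num)
  have hev := hev1.and hev2
  rw [← eventually_eventually_nhds] at hev
  filter_upwards [hev] with g0 hg0 ht0
  by_contra hcon
  push Not at hcon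
  -- move `g0` into `U t`
  have hev3 : ∀ᶠ g in 𝓝 g0, dist g y < 1 :=
    (continuous_id.dist continuous_const).continuousAt.eventually (Iio_mem_nhds hcon)
  obtain ⟨g, ⟨⟨hg1, hg2⟩, hg3⟩, hgU⟩ := mem_closure_iff_nhds.1 ht0 _ (hg0.and hev3)
  -- intermediate value
  have hcont : ContinuousOn (fun δ => dist (pt a y κ δ) g) (Icc (-η) 0) :=
    ((continuous_pt a y κ).dist continuous_const).continuousOn
  have hmem : (1 : ℝ) ∈ Icc (dist (pt a y κ 0) g) (dist (pt a y κ (-η)) g) := by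
    rw [pt_zero, dist_comm]
    exact ⟨hg3.le, hg1.le⟩
  obtain ⟨δ, ⟨hδ1, hδ2⟩, hδ⟩ := intermediate_value_Icc' (by linarith) hcont hmem
  have hδ : dist (pt a y κ δ) g = 1 := hδ
  have hδ3 : δ < 0 := by
    rcases hδ2.lt_or_eq with h4 | h4
    · exact h4
    · rw [h4, pt_zero, dist_comm] at hδ; linarith
  set p := pt a y κ δ with hp
  have hpa : dist p a = 1 := dist_pt_a h2 κ δ
  have hpv : 1 < dist p v := hout δ hδ1 hδ3
  have hpb : 1 < dist p b := by
    have e1 := dist_pt_b h1 h2 h3 hpa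
    rw [← hb] at e1
    have e2 := dist_nonneg (x := p) (y := b)
    have e3 := sq_nonneg (dist p y)
    nlinarith
  have hpy : dist p y < r := by
    refine (dist_pt_y_le h2 hκ δ).trans_lt ?_
    rw [abs_of_neg hδ3]; linarith
  have hga : g ≠ a := by
    rintro rfl
    rw [dist_comm] at hg2
    linarith
  have hga2 : g + a ≠ 2 * p := by
    intro h5
    have h6 : g - a = 2 * (p - a) := by linear_combination h5
    have h7 : dist g a = 2 := by
      rw [dist_eq_norm, h6, norm_mul, ← dist_eq_norm, hpa]; simp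
    have h8 := dist_triangle g v a
    linarith
  have hO : {q | 1 < dist q b} ∩ {q | dist q y < r} ∈ 𝓝 p :=
    inter_mem ((continuous_id.dist continuous_const).continuousAt.eventually (Ioi_mem_nhds hpb))
      ((continuous_id.dist continuous_const).continuousAt.eventually (Iio_mem_nhds hpy))
  obtain ⟨q, ⟨hq1, hq2⟩, hq3, hq4⟩ := core h hgU hca hδ hpa hga hga2 hO
  obtain ⟨hq5, hq6⟩ := hrp hq2
  obtain ⟨i, hi⟩ := h.cover q
  rcases hpal (hq6 hi) with rfl | rfl | rfl
  · exact hq3 hi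
  · have := hq5 hi
    have hq1 : 1 < dist q b := hq1
    linarith
  · exact hq4 hi

/-- **case B**: if the colour `c'` lives near `y` outside `D(b)` then the colour `t` lives near
`v` inside `cl D(y)` -/
theorem fzB (h : Mx U) {v y a b : ℂ} {c c' t : Fin 6} (h1 : dist v a = 1) (h2 : dist y a = 1)
    (h3 : dist y v = 1) (hb : b = v + y - a) (hpal : Pal U y ⊆ {c, c', t})
    (hca : c ∈ Pal U a) (hc' : ∀ᶠ p in 𝓝 y, c' ∈ Pal U p → 1 ≤ dist p b) :
    ∀ᶠ g in 𝓝 v, t ∈ Pal U g → dist g y ≤ 1 := by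
  obtain ⟨κ, hκ, hv⟩ := circ_param h1 h2 h3
  obtain ⟨r, hr, hrp⟩ := Metric.eventually_nhds_iff.1 (hc'.and (pal_nhd U y))
  set η := min (r / 2) 1 with hη
  have hη0 : 0 < η := lt_min (by linarith) one_pos
  have hηr : η < r := (min_le_left _ _).trans_lt (by linarith)
  have hη1 : η ≤ 1 := min_le_right _ _
  have hpi := Real.pi_gt_three
  -- inward points
  have hin : ∀ δ, 0 < δ → δ ≤ η → dist (pt a y κ δ) v < 1 := by
    intro δ hδ1 hδ2
    have e1 := dist_pt_v h2 hκ hv δ
    have e2 : 1 / 2 < Real.cos (δ - Real.pi / 3) := by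
      rw [← Real.cos_pi_div_three, ← Real.cos_neg (δ - Real.pi / 3)]
      apply Real.cos_lt_cos_of_nonneg_of_le_pi
      · linarith
      · linarith
      · linarith
    have e3 := dist_nonneg (x := pt a y κ δ) (y := v)
    nlinarith
  have hinb : ∀ δ, 0 < δ → δ ≤ η → dist (pt a y κ δ) b < 1 := by
    intro δ hδ1 hδ2
    have e1 := dist_pt_v h2 hκ hv δ
    have e2 := dist_pt_y h2 hκ δ
    have e3 := dist_pt_b h1 h2 h3 (dist_pt_a h2 κ δ)
    rw [← hb] at e3
    -- `cos δ + cos (δ - π/3) > 3/2`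
    have e4 : 3 / 2 < Real.cos δ + Real.cos (δ - Real.pi / 3) := by
      have e5 : Real.cos δ + Real.cos (δ - Real.pi / 3) =
          2 * Real.cos (δ - Real.pi / 6) * Real.cos (Real.pi / 6) := by
        have e6 : Real.cos δ = Real.cos (δ - Real.pi / 6) * Real.cos (Real.pi / 6) -
            Real.sin (δ - Real.pi / 6) * Real.sin (Real.pi / 6) := by
          rw [← Real.cos_add]; congr 1; ring
        have e7 : Real.cos (δ - Real.pi / 3) =
            Real.cos (δ - Real.pi / 6) * Real.cos (Real.pi / 6) +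
            Real.sin (δ - Real.pi / 6) * Real.sin (Real.pi / 6) := by
          rw [← Real.cos_sub]; congr 1; ring
        rw [e6, e7]; ring
      have e8 : Real.cos (Real.pi / 6) < Real.cos (δ - Real.pi / 6) := by
        rw [← Real.cos_abs (δ - Real.pi / 6)]
        apply Real.cos_lt_cos_of_nonneg_of_le_pi (abs_nonneg _) (by linarith)
        rw [abs_lt]; constructor <;> linarith
      rw [e5]
      rw [Real.cos_pi_div_six] at *
      have hs : Real.sqrt 3 ^ 2 = 3 := Real.sq_sqrt (by norm_num)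
      have hs0 : 0 < Real.sqrt 3 := Real.sqrt_pos.2 (by norm_num)
      nlinarith
    have e9 := dist_nonneg (x := pt a y κ δ) (y := b)
    nlinarith
  have hev1 : ∀ᶠ g in 𝓝 v, dist (pt a y κ η) g < 1 :=
    (continuous_const.dist continuous_id).continuousAt.eventually
      (Iio_mem_nhds (hin η hη0 le_rfl))
  have hev2 : ∀ᶠ g in 𝓝 v, dist g v < 1 / 4 := Metric.ball_mem_nhds v (by norm_num)
  have hev := hev1.and hev2
  rw [← eventually_eventually_nhds] at hev
  filter_upwards [hev] with g0 hg0 ht0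
  by_contra hcon
  push Not at hcon
  have hev3 : ∀ᶠ g in 𝓝 g0, 1 < dist g y :=
    (continuous_id.dist continuous_const).continuousAt.eventually (Ioi_mem_nhds hcon)
  obtain ⟨g, ⟨⟨hg1, hg2⟩, hg3⟩, hgU⟩ := mem_closure_iff_nhds.1 ht0 _ (hg0.and hev3)
  have hcont : ContinuousOn (fun δ => dist (pt a y κ δ) g) (Icc 0 η) :=
    ((continuous_pt a y κ).dist continuous_const).continuousOn
  have hmem : (1 : ℝ) ∈ Icc (dist (pt a y κ η) g) (dist (pt a y κ 0) g) := by
    rw [pt_zero, dist_comm y g]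
    exact ⟨hg1.le, hg3.le⟩
  obtain ⟨δ, ⟨hδ1, hδ2⟩, hδ⟩ := intermediate_value_Icc' hη0.le hcont hmem
  have hδ : dist (pt a y κ δ) g = 1 := hδ
  have hδ3 : 0 < δ := by
    rcases hδ1.lt_or_eq with h4 | h4
    · exact h4
    · rw [← h4, pt_zero, dist_comm] at hδ; linarith
  set p := pt a y κ δ with hp
  have hpa : dist p a = 1 := dist_pt_a h2 κ δ
  have hpb : dist p b < 1 := hinb δ hδ3 hδ2
  have hpy : dist p y < r := by
    refine (dist_pt_y_le h2 hκ δ).trans_lt ?_
    rw [abs_of_pos hδ3]; linarith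
  have hga : g ≠ a := by
    rintro rfl
    rw [dist_comm] at hg2
    linarith
  have hga2 : g + a ≠ 2 * p := by
    intro h5
    have h6 : g - a = 2 * (p - a) := by linear_combination h5
    have h7 : dist g a = 2 := by
      rw [dist_eq_norm, h6, norm_mul, ← dist_eq_norm, hpa]; simp
    have h8 := dist_triangle g v a
    linarith
  have hO : {q | dist q b < 1} ∩ {q | dist q y < r} ∈ 𝓝 p :=
    inter_mem ((continuous_id.dist continuous_const).continuousAt.eventually (Iio_mem_nhds hpb))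
      ((continuous_id.dist continuous_const).continuousAt.eventually (Iio_mem_nhds hpy))
  obtain ⟨q, ⟨hq1, hq2⟩, hq3, hq4⟩ := core h hgU hca hδ hpa hga hga2 hO
  obtain ⟨hq5, hq6⟩ := hrp hq2
  obtain ⟨i, hi⟩ := h.cover q
  rcases hpal (hq6 hi) with rfl | rfl | rfl
  · exact hq3 hi
  · have := hq5 hi
    have hq1 : dist q b < 1 := hq1
    linarith
  · exact hq4 hi

/-- `(W)` for an arc ending at `b`, inside -/
theorem arcA (h : Mx U) {y b a0 : ℂ} {c : Fin 6} {Q : Set ℂ} (hQ : IsPreconnected Q)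
    (hQF : Q ⊆ closure (U c)) (hb : b ∈ Q) (ha : a0 ∈ Q) (hd : dist a0 y < 1) :
    ∀ᶠ p in 𝓝 y, c ∈ Pal U p → dist p b ≤ 1 := by
  have hev : ∀ᶠ p in 𝓝 y, dist a0 p < 1 :=
    (continuous_const.dist continuous_id).continuousAt.eventually (Iio_mem_nhds hd)
  filter_upwards [hev] with p hp hcp
  by_contra hcon
  push Not at hcon
  exact h.wlemma hQ hQF ha hb hp (by rw [dist_comm]; exact hcon) hcp

/-- `(W)` for an arc ending at `b`, outside -/
theorem arcB (h : Mx U) {y b a0 : ℂ} {c : Fin 6} {Q : Set ℂ} (hQ : IsPreconnected Q)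
    (hQF : Q ⊆ closure (U c)) (hb : b ∈ Q) (ha : a0 ∈ Q) (hd : 1 < dist a0 y) :
    ∀ᶠ p in 𝓝 y, c ∈ Pal U p → 1 ≤ dist p b := by
  have hev : ∀ᶠ p in 𝓝 y, 1 < dist a0 p :=
    (continuous_const.dist continuous_id).continuousAt.eventually (Ioi_mem_nhds hd)
  filter_upwards [hev] with p hp hcp
  by_contra hcon
  push Not at hcon
  exact h.wlemma hQ hQF hb ha (by rw [dist_comm]; exact hcon) hp hcp

end Vale.Agent.P032.S5.H783
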