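import Vale.Agent.P032.S5.H783.FZ

/-!
# P032, block (L-6), part 3: frozen circles do not exist
-/

open Set Filter Topology Metric

noncomputable section

namespace Vale.Agent.P032.S5.H783

open Vale.Agent.P032.Six

variable {U : Fin 6 → Set ℂ} {K : ℂ → Set (Fin 6)}

/-- six points on the circle -/
def yy (v : ℂ) (θ : ℝ) (k : ℕ) : ℂ := v + cis (θ + k * (Real.pi / 3))

theorem dist_yy (v : ℂ) (θ : ℝ) (k : ℕ) : dist (yy v θ k) v = 1 := dist_add_cis _ _

theorem cis_third : cis (Real.pi / 3) ^ 2 = cis (Real.pi / 3) - 1 := by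
  have h1 : cis (Real.pi / 3) = ⟨1 / 2, Real.sqrt 3 / 2⟩ := by
    apply Complex.ext
    · rw [cis, Complex.exp_ofReal_mul_I_re, Real.cos_pi_div_three]
    · rw [cis, Complex.exp_ofReal_mul_I_im, Real.sin_pi_div_three]
  have hs : Real.sqrt 3 ^ 2 = 3 := Real.sq_sqrt (by norm_num)
  rw [h1]
  apply Complex.ext
  · simp [pow_two]; nlinarith
  · simp [pow_two]; ring

theorem yy_succ (v : ℂ) (θ : ℝ) (k : ℕ) :
    yy v θ (k + 1) = v + cis (Real.pi / 3) * (yy v θ k - v) := by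
  rw [yy, yy]
  have : θ + ((k + 1 : ℕ) : ℝ) * (Real.pi / 3) = Real.pi / 3 + (θ + k * (Real.pi / 3)) := by
    push_cast; ring
  rw [this, cis_add]; ring

/-- the linear relation between three consecutive points -/
theorem yy_rel (v : ℂ) (θ : ℝ) (k : ℕ) : yy v θ (k + 2) + yy v θ k = v + yy v θ (k + 1) := by
  rw [yy_succ v θ (k + 1), yy_succ v θ k]
  have h := cis_third
  linear_combination (yy v θ k - v) * h

theorem dist_cis_sub {v : ℂ} (s t : ℝ) :
    dist (v + cis s) (v + cis t) ^ 2 = 2 - 2 * Real.cos (s - t) := by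
  rw [dist_eq_norm, add_sub_add_left_eq_sub, norm_cis_sub]

theorem dist_yy_succ (v : ℂ) (θ : ℝ) (k : ℕ) : dist (yy v θ k) (yy v θ (k + 1)) = 1 := by
  have h := dist_cis_sub (v := v) (θ + k * (Real.pi / 3)) (θ + ((k + 1 : ℕ) : ℝ) * (Real.pi / 3))
  have h2 : θ + k * (Real.pi / 3) - (θ + ((k + 1 : ℕ) : ℝ) * (Real.pi / 3)) = -(Real.pi / 3) := by
    push_cast; ring
  rw [h2, Real.cos_neg, Real.cos_pi_div_three] at h
  have h3 := dist_nonneg (x := yy v θ k) (y := yy v θ (k + 1))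
  have h4 : dist (yy v θ k) (yy v θ (k + 1)) ^ 2 = 1 := by
    rw [yy, yy]; linarith
  nlinarith

/-- `y_{k+2}` is not on the line through `y_{k+1}` and `y_k` -/
theorem yy_not_line (v : ℂ) (θ : ℝ) (k : ℕ) :
    ¬ (yy v θ (k + 2) = yy v θ k ∨ yy v θ (k + 2) + yy v θ k = 2 * yy v θ (k + 1)) := by
  have h := yy_rel v θ k
  have h1 := dist_yy v θ (k + 1)
  have h2 := dist_yy_succ v θ k
  rintro (h3 | h3)
  · -- then `2 y_k = v + y_{k+1}`: midpoint
    have h4 : yy v θ k - v = yy v θ (k + 1) - yy v θ k := by linear_combination h - h3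
    have h5 : yy v θ (k + 1) - v = 2 * (yy v θ k - v) := by linear_combination -h4
    have h6 : dist (yy v θ (k + 1)) v = 2 := by
      rw [dist_eq_norm, h5, norm_mul, ← dist_eq_norm, dist_yy]; simp
    linarith
  · have h4 : yy v θ (k + 1) = v := by linear_combination h3.symm.trans h
    rw [h4] at h1; simp at h1

/-- real inner product -/
def ip (a b : ℂ) : ℝ := a.re * b.re + a.im * b.im

theorem dist_sq_ip (g v y : ℂ) (hy : dist y v = 1) :
    dist g y ^ 2 = dist g v ^ 2 + 1 - 2 * ip (g - v) (y - v) := by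
  have h := sq_dist y v
  rw [hy] at h
  rw [sq_dist, sq_dist, ip]
  simp only [Complex.sub_re, Complex.sub_im]
  nlinarith

/-- the sum of the inner products with three directions at 120 degrees -/
theorem ip_sum (v g : ℂ) (θ : ℝ) (k : ℕ) :
    ip (g - v) (yy v θ k - v) + ip (g - v) (yy v θ (k + 2) - v)
      + ip (g - v) (yy v θ (k + 4) - v) = 0 := by
  have h1 := yy_rel v θ k
  have h2 := yy_rel v θ (k + 1)
  have h3 := yy_rel v θ (k + 2)
  have h4 : (yy v θ k - v) + (yy v θ (k + 2) - v) + (yy v θ (k + 4) - v) = 0 := by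
    linear_combination h1 + h2 + h3
  have h5 := congrArg Complex.re h4
  have h6 := congrArg Complex.im h4
  simp only [Complex.add_re, Complex.add_im, Complex.zero_re, Complex.zero_im] at h5 h6
  unfold ip
  linear_combination (g - v).re * h5 + (g - v).im * h6

/-- the sum of the squares -/
theorem ip_sq_sum (v g : ℂ) (θ : ℝ) (k : ℕ) :
    ip (g - v) (yy v θ k - v) ^ 2 + ip (g - v) (yy v θ (k + 2) - v) ^ 2
      + ip (g - v) (yy v θ (k + 4) - v) ^ 2 = 3 / 2 * dist g v ^ 2 := by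
  -- with `e = y_k - v`, `f = y_{k+2} - v`, the third vector is `-e - f`
  have h1 := yy_rel v θ k
  have h2 := yy_rel v θ (k + 1)
  have h3 := yy_rel v θ (k + 2)
  set e := yy v θ k - v with he
  set f := yy v θ (k + 2) - v with hf
  have h4 : yy v θ (k + 4) - v = -(e + f) := by
    rw [he, hf]; linear_combination h1 + h2 + h3
  have n1 : e.re ^ 2 + e.im ^ 2 = 1 := by
    have := sq_dist (yy v θ k) v
    rw [dist_yy] at this
    simp only [he, Complex.sub_re, Complex.sub_im]; linarith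
  have n2 : f.re ^ 2 + f.im ^ 2 = 1 := by
    have := sq_dist (yy v θ (k + 2)) v
    rw [dist_yy] at this
    simp only [hf, Complex.sub_re, Complex.sub_im]; linarith
  have n3 : (e.re + f.re) ^ 2 + (e.im + f.im) ^ 2 = 1 := by
    have h5 : yy v θ (k + 1) - v = e + f := by rw [he, hf]; linear_combination -h1
    have := sq_dist (yy v θ (k + 1)) v
    rw [dist_yy] at this
    have h6 := congrArg Complex.re h5
    have h7 := congrArg Complex.im h5
    simp only [Complex.sub_re, Complex.sub_im, Complex.add_re, Complex.add_im] at h6 h7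
    rw [← h6, ← h7]; linarith
  have nn : e.re * f.re + e.im * f.im = -1 / 2 := by nlinarith
  rw [h4, sq_dist g v]
  simp only [ip, Complex.sub_re, Complex.sub_im, Complex.neg_re, Complex.neg_im, Complex.add_re,
    Complex.add_im]
  -- `e e^T + f f^T + (e+f)(e+f)^T = 3/2 I`
  have q0 : e.re ^ 2 * f.im ^ 2 + e.im ^ 2 * f.re ^ 2 - 2 * (e.re * f.re * e.im * f.im) = 3 / 4 := by
    have : (e.re ^ 2 + e.im ^ 2) * (f.re ^ 2 + f.im ^ 2) -
      (e.re * f.re + e.im * f.im) ^ 2 = 3 / 4 := by rw [n1, n2, nn]; norm_num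
    nlinarith
  have q1 : e.re ^ 2 + f.re ^ 2 + (e.re + f.re) ^ 2 = 3 / 2 := by
    -- identity: (e×f)² = 3/4, f = (-1/2) e + s J e, s² = 3/4
    have s1 : f.re = -(1 / 2) * e.re - (e.re * f.im - e.im * f.re) * e.im := by
      linear_combination (-f.re) * n1 + e.re * nn
    have s2 : (e.re * f.im - e.im * f.re) ^ 2 = 3 / 4 := by nlinarith
    set s := e.re * f.im - e.im * f.re with hs
    rw [s1]
    nlinarith
  have q2 : e.im ^ 2 + f.im ^ 2 + (e.im + f.im) ^ 2 = 3 / 2 := by nlinarith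
  have q3 : e.re * e.im + f.re * f.im + (e.re + f.re) * (e.im + f.im) = 0 := by
    have s1 : f.re = -(1 / 2) * e.re - (e.re * f.im - e.im * f.re) * e.im := by
      linear_combination (-f.re) * n1 + e.re * nn
    have s3 : f.im = -(1 / 2) * e.im + (e.re * f.im - e.im * f.re) * e.re := by
      linear_combination (-f.im) * n1 + e.im * nn
    have s2 : (e.re * f.im - e.im * f.re) ^ 2 = 3 / 4 := by nlinarith
    set s := e.re * f.im - e.im * f.re with hs
    rw [s1, s3]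
    linear_combination (-2 * e.re * e.im) * s2
  linear_combination (g.re - v.re) ^ 2 * q1 + (g.im - v.im) ^ 2 * q2 +
    2 * (g.re - v.re) * (g.im - v.im) * q3

theorem ip_one (v : ℂ) (θ : ℝ) (k : ℕ) : ip (yy v θ k - v) (yy v θ k - v) = 1 := by
  have h := sq_dist (yy v θ k) v
  rw [dist_yy] at h
  simp only [ip, Complex.sub_re, Complex.sub_im]
  linarith

theorem ip_half (v : ℂ) (θ : ℝ) (k : ℕ) : ip (yy v θ (k + 1) - v) (yy v θ k - v) = 1 / 2 := by
  have h := dist_sq_ip (yy v θ (k + 1)) v (yy v θ k) (dist_yy v θ k)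
  rw [dist_yy, dist_comm, dist_yy_succ] at h
  linarith

theorem ip_half' (v : ℂ) (θ : ℝ) (k : ℕ) : ip (yy v θ k - v) (yy v θ (k + 1) - v) = 1 / 2 := by
  have h := dist_sq_ip (yy v θ k) v (yy v θ (k + 1)) (dist_yy v θ (k + 1))
  rw [dist_yy, dist_yy_succ] at h
  linarith

theorem ip_smul (r : ℝ) (a b : ℂ) : ip ((r : ℂ) * a) b = r * ip a b := by
  simp [ip]; ring

/-- moving by `r` in direction `y_{k+1}` -/
theorem dist_move (v : ℂ) (θ : ℝ) (k : ℕ) (r : ℝ) :
    dist (v + (r : ℂ) * (yy v θ (k + 1) - v)) v = |r| := by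
  rw [dist_eq_norm, add_sub_cancel_left, norm_mul, ← dist_eq_norm, dist_yy, mul_one,
    Complex.norm_real, Real.norm_eq_abs]

theorem dist_move_sq (v : ℂ) (θ : ℝ) (k : ℕ) (r : ℝ) (j : ℕ) :
    dist (v + (r : ℂ) * (yy v θ (k + 1) - v)) (yy v θ j) ^ 2 =
      r ^ 2 + 1 - 2 * (r * ip (yy v θ (k + 1) - v) (yy v θ j - v)) := by
  rw [dist_sq_ip _ v _ (dist_yy v θ j), dist_move, add_sub_cancel_left, ip_smul, sq_abs]

/-- a set of three colours is covered by three different members -/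
theorem three_cover {T : Set (Fin 6)} (h3 : T.ncard = 3) {a b c : Fin 6} (ha : a ∈ T)
    (hb : b ∈ T) (hc : c ∈ T) (hab : a ≠ b) (hbc : b ≠ c) (hac : a ≠ c) {i : Fin 6}
    (hi : i ∈ T) : i = a ∨ i = b ∨ i = c := by
  have h1 : ({a, b, c} : Set (Fin 6)) = T := by
    apply Set.eq_of_subset_of_ncard_le
    · rintro m (rfl | rfl | rfl) <;> assumption
    · rw [Set.ncard_insert_of_notMem, Set.ncard_pair hbc]
      · exact h3.le
      · rintro (h7 | h7)
        · exact hab h7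
        · exact hac h7
    · exact Set.toFinite _
  rw [← h1] at hi
  exact hi

/-- final contradiction, case A -/
theorem finA (h : Mx U) {v : ℂ} (hv : v ∈ XX U) (h3 : (Pal U v).ncard = 3) (θ : ℝ)
    (t : ℕ → Fin 6) (ht : ∀ k, t k ∈ Pal U v) (hne : ∀ k, t k ≠ t (k + 1))
    (hA : ∀ k, ∀ᶠ g in 𝓝 v, t k ∈ Pal U g → 1 ≤ dist g (yy v θ k)) : False := by
  by_cases halt : t 0 = t 2 ∧ t 2 = t 4
  · obtain ⟨h02, h24⟩ := halt
    have hev : ∀ᶠ g in 𝓝 v, (t 0 ∈ Pal U g → 1 ≤ dist g (yy v θ 0)) ∧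
        (t 2 ∈ Pal U g → 1 ≤ dist g (yy v θ 2)) ∧ (t 4 ∈ Pal U g → 1 ≤ dist g (yy v θ 4)) ∧
        dist g v < 1 / 2 :=
      (hA 0).and ((hA 2).and ((hA 4).and (Metric.ball_mem_nhds v (by norm_num))))
    obtain ⟨g, ⟨g0, g2, g4, g5⟩, hgU⟩ := mem_closure_iff_nhds.1 (ht 0) _ hev
    have hg0 := g0 (subset_closure hgU)
    have hg2 := g2 (h02 ▸ subset_closure hgU)
    have hg4 := g4 (h24 ▸ h02 ▸ subset_closure hgU)
    have hgv : g ≠ v := by
      rintro rfl
      exact hv _ hgU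
    have hr : 0 < dist g v := dist_pos.2 hgv
    have e0 := dist_sq_ip g v (yy v θ 0) (dist_yy v θ 0)
    have e2 := dist_sq_ip g v (yy v θ 2) (dist_yy v θ 2)
    have e4 := dist_sq_ip g v (yy v θ 4) (dist_yy v θ 4)
    have es := ip_sum v g θ 0
    have eq := ip_sq_sum v g θ 0
    simp only [Nat.zero_add] at es eq
    set a0 := ip (g - v) (yy v θ 0 - v)
    set a2 := ip (g - v) (yy v θ 2 - v)
    set a4 := ip (g - v) (yy v θ 4 - v)
    set r := dist g v
    have b0 : a0 ≤ r ^ 2 / 2 := by nlinarith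
    have b2 : a2 ≤ r ^ 2 / 2 := by nlinarith
    have b4 : a4 ≤ r ^ 2 / 2 := by nlinarith
    have c0 : -(r ^ 2) ≤ a0 := by linarith
    have c2 : -(r ^ 2) ≤ a2 := by linarith
    have c4 : -(r ^ 2) ≤ a4 := by linarith
    have hr2 : 0 < r ^ 2 := by positivity
    have d0 : a0 ^ 2 ≤ (r ^ 2) ^ 2 := sq_le_sq' c0 (by linarith)
    have d2 : a2 ^ 2 ≤ (r ^ 2) ^ 2 := sq_le_sq' c2 (by linarith)
    have d4 : a4 ^ 2 ≤ (r ^ 2) ^ 2 := sq_le_sq' c4 (by linarith)
    have hr3 : r ^ 2 < 1 / 4 := by nlinarith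
    nlinarith
  · -- three consecutive different colours
    have hk : ∃ k, t k ≠ t (k + 2) := by
      by_contra hcon
      push Not at hcon
      exact halt ⟨hcon 0, hcon 2⟩
    obtain ⟨k, hk⟩ := hk
    have hev : ∀ᶠ g in 𝓝 v, (t k ∈ Pal U g → 1 ≤ dist g (yy v θ k)) ∧
        (t (k + 1) ∈ Pal U g → 1 ≤ dist g (yy v θ (k + 1))) ∧
        (t (k + 2) ∈ Pal U g → 1 ≤ dist g (yy v θ (k + 2))) ∧ Pal U g ⊆ Pal U v :=
      (hA k).and ((hA (k + 1)).and ((hA (k + 2)).and (pal_nhd U v)))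
    obtain ⟨ρ, hρ, hball⟩ := Metric.eventually_nhds_iff.1 hev
    set r := min (ρ / 2) (1 / 2) with hr
    have hr0 : 0 < r := lt_min (by linarith) (by norm_num)
    have hr1 : r < ρ := (min_le_left _ _).trans_lt (by linarith)
    have hr2 : r ≤ 1 / 2 := min_le_right _ _
    set g := v + (r : ℂ) * (yy v θ (k + 1) - v) with hg
    obtain ⟨g0, g1, g2, g3⟩ := hball (y := g) (by rw [hg, dist_move, abs_of_pos hr0]; exact hr1)
    obtain ⟨i, hi⟩ := h.cover g
    have q0 := dist_move_sq v θ k r k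
    have q1 := dist_move_sq v θ k r (k + 1)
    have q2 := dist_move_sq v θ k r (k + 2)
    rw [ip_half] at q0
    rw [ip_one] at q1
    rw [ip_half'] at q2
    rw [← hg] at q0 q1 q2
    have p0 := dist_nonneg (x := g) (y := yy v θ k)
    have p1 := dist_nonneg (x := g) (y := yy v θ (k + 1))
    have p2 := dist_nonneg (x := g) (y := yy v θ (k + 2))
    rcases three_cover h3 (ht k) (ht (k + 1)) (ht (k + 2)) (hne k) (hne (k + 1)) hk (g3 hi)
      with rfl | rfl | rfl
    · have := g0 hi; nlinarith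
    · have := g1 hi; nlinarith
    · have := g2 hi; nlinarith

/-- final contradiction, case B -/
theorem finB (h : Mx U) {v : ℂ} (hv : v ∈ XX U) (h3 : (Pal U v).ncard = 3) (θ : ℝ)
    (t : ℕ → Fin 6) (ht : ∀ k, t k ∈ Pal U v) (hne : ∀ k, t k ≠ t (k + 1))
    (hB : ∀ k, ∀ᶠ g in 𝓝 v, t k ∈ Pal U g → dist g (yy v θ k) ≤ 1) : False := by
  by_cases halt : t 0 = t 2 ∧ t 2 = t 4
  · obtain ⟨h02, h24⟩ := halt
    have hev : ∀ᶠ g in 𝓝 v, (t 0 ∈ Pal U g → dist g (yy v θ 0) ≤ 1) ∧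
        (t 2 ∈ Pal U g → dist g (yy v θ 2) ≤ 1) ∧ (t 4 ∈ Pal U g → dist g (yy v θ 4) ≤ 1) :=
      (hB 0).and ((hB 2).and (hB 4))
    obtain ⟨g, ⟨g0, g2, g4⟩, hgU⟩ := mem_closure_iff_nhds.1 (ht 0) _ hev
    have hg0 := g0 (subset_closure hgU)
    have hg2 := g2 (h02 ▸ subset_closure hgU)
    have hg4 := g4 (h24 ▸ h02 ▸ subset_closure hgU)
    have hgv : g ≠ v := by
      rintro rfl
      exact hv _ hgU
    have hr : 0 < dist g v := dist_pos.2 hgv
    have e0 := dist_sq_ip g v (yy v θ 0) (dist_yy v θ 0)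
    have e2 := dist_sq_ip g v (yy v θ 2) (dist_yy v θ 2)
    have e4 := dist_sq_ip g v (yy v θ 4) (dist_yy v θ 4)
    have es := ip_sum v g θ 0
    simp only [Nat.zero_add] at es
    have p0 := dist_nonneg (x := g) (y := yy v θ 0)
    have p2 := dist_nonneg (x := g) (y := yy v θ 2)
    have p4 := dist_nonneg (x := g) (y := yy v θ 4)
    have hr2 : 0 < dist g v ^ 2 := by positivity
    have b0 : dist g (yy v θ 0) ^ 2 ≤ 1 := by nlinarith
    have b2 : dist g (yy v θ 2) ^ 2 ≤ 1 := by nlinarith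
    have b4 : dist g (yy v θ 4) ^ 2 ≤ 1 := by nlinarith
    linarith
  · have hk : ∃ k, t k ≠ t (k + 2) := by
      by_contra hcon
      push Not at hcon
      exact halt ⟨hcon 0, hcon 2⟩
    obtain ⟨k, hk⟩ := hk
    have hev : ∀ᶠ g in 𝓝 v, (t k ∈ Pal U g → dist g (yy v θ k) ≤ 1) ∧
        (t (k + 1) ∈ Pal U g → dist g (yy v θ (k + 1)) ≤ 1) ∧
        (t (k + 2) ∈ Pal U g → dist g (yy v θ (k + 2)) ≤ 1) ∧ Pal U g ⊆ Pal U v :=
      (hB k).and ((hB (k + 1)).and ((hB (k + 2)).and (pal_nhd U v)))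
    obtain ⟨ρ, hρ, hball⟩ := Metric.eventually_nhds_iff.1 hev
    set r := ρ / 2 with hr
    have hr0 : 0 < r := by positivity
    have hr1 : r < ρ := by linarith
    set g := v + ((-r : ℝ) : ℂ) * (yy v θ (k + 1) - v) with hg
    obtain ⟨g0, g1, g2, g3⟩ := hball (y := g) (by
      rw [hg, dist_move, abs_neg, abs_of_pos hr0]; exact hr1)
    obtain ⟨i, hi⟩ := h.cover g
    have q0 := dist_move_sq v θ k (-r) k
    have q1 := dist_move_sq v θ k (-r) (k + 1)
    have q2 := dist_move_sq v θ k (-r) (k + 2)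
    rw [ip_half] at q0
    rw [ip_one] at q1
    rw [ip_half'] at q2
    rw [← hg] at q0 q1 q2
    have p0 := dist_nonneg (x := g) (y := yy v θ k)
    have p1 := dist_nonneg (x := g) (y := yy v θ (k + 1))
    have p2 := dist_nonneg (x := g) (y := yy v θ (k + 2))
    rcases three_cover h3 (ht k) (ht (k + 1)) (ht (k + 2)) (hne k) (hne (k + 1)) hk (g3 hi)
      with rfl | rfl | rfl
    · have := g0 hi; nlinarith
    · have := g1 hi; nlinarith
    · have := g2 hi; nlinarith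

end Vale.Agent.P032.S5.H783
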