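import Vale.Agent.P032.S5.H783.Frozen

/-!
# P032, block (L-6), part 4: frozen circles do not exist (assembly)
-/

open Set Filter Topology Metric

noncomputable section

namespace Vale.Agent.P032.S5.H783

open Vale.Agent.P032.Six

variable {U : Fin 6 → Set ℂ} {K : ℂ → Set (Fin 6)}

theorem yy_shift (v : ℂ) (θ : ℝ) (k : ℕ) : yy v (θ + Real.pi / 3) k = yy v θ (k + 1) := by
  rw [yy, yy]; congr 2; push_cast; ring

theorem continuous_yy (v : ℂ) (k : ℕ) : Continuous fun θ => yy v θ k := by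
  unfold yy
  exact continuous_const.add (continuous_cis.comp (continuous_id.add continuous_const))

theorem dist_yy_add (v : ℂ) (s t : ℝ) (j k : ℕ) :
    dist (yy v s j) (yy v t k) ^ 2 =
      2 - 2 * Real.cos ((s - t) + ((j : ℝ) - k) * (Real.pi / 3)) := by
  rw [yy, yy, dist_cis_sub]
  congr 3
  ring

theorem dist_sq_lt {x : ℝ} (hx : 0 ≤ x) (h : x ^ 2 < 1) : x < 1 := by nlinarith
theorem dist_sq_gt {x : ℝ} (hx : 0 ≤ x) (h : 1 < x ^ 2) : 1 < x := by nlinarith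

/-- the complement of `Pal v` -/
theorem cover_compl {v : ℂ} (h3 : (Pal U v).ncard = 3) {a b c : Fin 6} (ha : a ∉ Pal U v)
    (hb : b ∉ Pal U v) (hc : c ∉ Pal U v) (hab : a ≠ b) (hbc : b ≠ c) (hac : a ≠ c) {i : Fin 6}
    (hi : i ∉ Pal U v) : i = a ∨ i = b ∨ i = c := by
  have h4 : ((Pal U v)ᶜ).ncard = 3 := by
    rw [Set.ncard_compl, h3]; simp
  exact three_cover h4 ha hb hc hab hbc hac hi

/-- the third colour of a palette of size at most three which has two colours outside `Pal v` -/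
theorem third_colour {y : ℂ} (hcard : (Pal U y).ncard ≤ 3) {a b t : Fin 6} (ha : a ∈ Pal U y)
    (hb : b ∈ Pal U y) (hab : a ≠ b) (ht : t ∈ Pal U y) (hta : t ≠ a) (htb : t ≠ b) :
    Pal U y ⊆ {a, b, t} := by
  have h1 : ({a, b, t} : Set (Fin 6)) = Pal U y := by
    apply Set.eq_of_subset_of_ncard_le
    · rintro m (rfl | rfl | rfl) <;> assumption
    · rw [Set.ncard_insert_of_notMem, Set.ncard_pair htb.symm]
      · exact hcard
      · rintro (h7 | h7)
        · exact hab h7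
        · exact hta h7.symm
    · exact Set.toFinite _
  exact h1.symm.subset

/-- **case A** of the frozen circle -/
theorem caseA (h : Mx U) (hK : Car U K) {v : ℂ} (hv : v ∈ XX U) (h3 : (Pal U v).ncard = 3)
    (hle : ∀ y, dist y v = 1 → y ∈ XX U → (Pal U y).ncard ≤ 3) {θa θ0 : ℝ} (hθ : θa < θ0)
    (hθ' : θ0 - θa ≤ 1 / 2) (c : ℕ → Fin 6) (hc : ∀ k, c k ∉ Pal U v)
    (hc1 : ∀ k, c k ≠ c (k + 1)) (hc2 : ∀ k, c k ≠ c (k + 2)) (hc3 : ∀ k, c (k + 3) = c k)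
    (hin : ∀ k, c k ∈ K (yy v θ0 k)) (hin' : ∀ k, c (k + 1) ∈ K (yy v θ0 k))
    (hout : ∀ k, c (k + 2) ∉ K (yy v θ0 k))
    (harc : ∀ k, ∀ θ ∈ Icc θa θ0, c k ∈ Pal U (yy v θ k)) : False := by
  have hpi := Real.pi_gt_three
  -- the six points are in `XX`
  have hX : ∀ k, yy v θ0 k ∈ XX U := by
    intro k
    by_contra hX
    exact h.notMem' (hK.offX _ hX _ (hin' k)) (dist_yy_succ v θ0 k) (hK.sub _ (hin (k + 1)))
  have hinP : ∀ k, c k ∈ Pal U (yy v θ0 k) := fun k => hK.sub _ (hin k)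
  have hinP' : ∀ k, c (k + 1) ∈ Pal U (yy v θ0 k) := fun k => hK.sub _ (hin' k)
  have houtP : ∀ k, c (k + 2) ∉ Pal U (yy v θ0 k) := fun k => by
    rw [← hK.onX _ (hX k)]; exact hout k
  -- the colours `t`
  have ht : ∀ k, ∃ t ∈ Pal U v, t ∈ Pal U (yy v θ0 (k + 1)) ∧
      Pal U (yy v θ0 (k + 1)) ⊆ {c (k + 1), c (k + 2), t} := by
    intro k
    have h1 : ¬ Pal U (yy v θ0 (k + 1)) ⊆ {c (k + 1), c (k + 2)} := by
      intro hsub
      have := h.lemmaB (x := yy v θ0 (k + 1)) (y := yy v θ0 k) (y' := yy v θ0 (k + 2)) hsub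
        (by rw [dist_comm]; exact dist_yy_succ v θ0 k) (dist_yy_succ v θ0 (k + 1))
        (hinP' k) (hinP (k + 2))
      exact yy_not_line v θ0 k this
    obtain ⟨t, ht1, ht2⟩ := Set.not_subset.1 h1
    have hta : t ≠ c (k + 1) := fun h5 => ht2 (Or.inl h5)
    have htb : t ≠ c (k + 2) := fun h5 => ht2 (Or.inr h5)
    refine ⟨t, ?_, ht1, third_colour (hle _ (dist_yy v θ0 _) (hX _)) (hinP (k + 1))
      (hinP' (k + 1)) (hc1 (k + 1)) ht1 hta htb⟩
    by_contra htv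
    rcases cover_compl h3 (hc (k + 1)) (hc (k + 2)) (hc (k + 3)) (hc1 (k + 1)) (hc1 (k + 2))
      (hc2 (k + 1)) htv with h5 | h5 | h5
    · exact hta h5
    · exact htb h5
    · exact houtP (k + 1) (h5 ▸ ht1)
  choose t htv hty htsub using ht
  have hne : ∀ k, t k ≠ t (k + 1) := by
    intro k heq
    have hsub : Pal U (yy v θ0 (k + 2)) ⊆ insert (c (k + 3)) (Pal U (yy v θ0 (k + 1))) := by
      intro m hm
      rcases htsub (k + 1) hm with h5 | h5 | h5
      · right; rw [h5]; exact hinP' (k + 1)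
      · left; exact h5
      · right
        rw [h5, ← heq]; exact hty k
    have := h.lemmaX (u := yy v θ0 (k + 1)) (p := yy v θ0 (k + 2)) (v := yy v θ0 (k + 3))
      (hX (k + 1)) (by rw [dist_comm]; exact dist_yy_succ v θ0 (k + 1))
      (hle _ (dist_yy v θ0 _) (hX _)) hsub (dist_yy_succ v θ0 (k + 2)) (hinP (k + 3))
    exact yy_not_line v θ0 (k + 1) this
  refine finA h hv h3 (θ0 + Real.pi / 3) t htv hne fun k => ?_
  rw [yy_shift]
  -- the arc at `y_{k+2}`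
  have hev : ∀ᶠ p in 𝓝 (yy v θ0 (k + 1)), c (k + 2) ∈ Pal U p →
      dist p (yy v θ0 (k + 2)) ≤ 1 := by
    refine arcA h (Q := (fun θ => yy v θ (k + 2)) '' Icc θa θ0) (a0 := yy v θa (k + 2))
      (isPreconnected_Icc.image _ (continuous_yy v (k + 2)).continuousOn) ?_
      ⟨θ0, ⟨hθ.le, le_rfl⟩, rfl⟩ ⟨θa, ⟨le_rfl, hθ.le⟩, rfl⟩ ?_
    · rintro _ ⟨θ, hθm, rfl⟩
      exact harc (k + 2) θ hθm
    · apply dist_sq_lt dist_nonneg
      rw [dist_yy_add]
      have e1 : (θa - θ0) + (((k + 2 : ℕ) : ℝ) - ((k + 1 : ℕ) : ℝ)) * (Real.pi / 3) =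
          Real.pi / 3 - (θ0 - θa) := by push_cast; ring
      rw [e1]
      have e2 : 1 / 2 < Real.cos (Real.pi / 3 - (θ0 - θa)) := by
        rw [← Real.cos_pi_div_three]
        apply Real.cos_lt_cos_of_nonneg_of_le_pi <;> linarith
      linarith
  exact fzA h (a := yy v θ0 k) (b := yy v θ0 (k + 2)) (c := c (k + 1)) (c' := c (k + 2))
    (by rw [dist_comm]; exact dist_yy v θ0 k) (by rw [dist_comm]; exact dist_yy_succ v θ0 k)
    (dist_yy v θ0 (k + 1)) (by linear_combination yy_rel v θ0 k) (htsub k) (hinP' k) hev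

/-- **case B** of the frozen circle -/
theorem caseB (h : Mx U) (hK : Car U K) {v : ℂ} (hv : v ∈ XX U) (h3 : (Pal U v).ncard = 3)
    (hle : ∀ y, dist y v = 1 → y ∈ XX U → (Pal U y).ncard ≤ 3) {θa θ0 : ℝ} (hθ : θa < θ0)
    (hθ' : θ0 - θa ≤ 1 / 2) (c : ℕ → Fin 6) (hc : ∀ k, c k ∉ Pal U v)
    (hc1 : ∀ k, c k ≠ c (k + 1)) (hc2 : ∀ k, c k ≠ c (k + 2)) (hc3 : ∀ k, c (k + 3) = c k)
    (hin : ∀ k, c k ∈ K (yy v θ0 k)) (hin' : ∀ k, c (k + 2) ∈ K (yy v θ0 k))
    (hout : ∀ k, c (k + 1) ∉ K (yy v θ0 k))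
    (harc : ∀ k, ∀ θ ∈ Icc θa θ0, c k ∈ Pal U (yy v θ k)) : False := by
  have hpi := Real.pi_gt_three
  have hin2 : ∀ k, c k ∈ K (yy v θ0 (k + 1)) := fun k => by
    have := hin' (k + 1)
    rwa [show k + 1 + 2 = k + 3 from rfl, hc3] at this
  have hX : ∀ k, yy v θ0 k ∈ XX U := by
    intro k
    by_contra hX
    exact h.notMem' (hK.offX _ hX _ (hin k)) (dist_yy_succ v θ0 k) (hK.sub _ (hin2 k))
  have hinP : ∀ k, c k ∈ Pal U (yy v θ0 k) := fun k => hK.sub _ (hin k)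
  have hinP' : ∀ k, c k ∈ Pal U (yy v θ0 (k + 1)) := fun k => hK.sub _ (hin2 k)
  have houtP : ∀ k, c (k + 1) ∉ Pal U (yy v θ0 k) := fun k => by
    rw [← hK.onX _ (hX k)]; exact hout k
  have ht : ∀ k, ∃ t ∈ Pal U v, t ∈ Pal U (yy v θ0 (k + 1)) ∧
      Pal U (yy v θ0 (k + 1)) ⊆ {c (k + 1), c k, t} := by
    intro k
    have h1 : ¬ Pal U (yy v θ0 (k + 1)) ⊆ {c k, c (k + 1)} := by
      intro hsub
      have := h.lemmaB (x := yy v θ0 (k + 1)) (y := yy v θ0 k) (y' := yy v θ0 (k + 2)) hsub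
        (by rw [dist_comm]; exact dist_yy_succ v θ0 k) (dist_yy_succ v θ0 (k + 1))
        (hinP k) (hinP' (k + 1))
      exact yy_not_line v θ0 k this
    obtain ⟨t, ht1, ht2⟩ := Set.not_subset.1 h1
    have hta : t ≠ c (k + 1) := fun h5 => ht2 (Or.inr h5)
    have htb : t ≠ c k := fun h5 => ht2 (Or.inl h5)
    refine ⟨t, ?_, ht1, third_colour (hle _ (dist_yy v θ0 _) (hX _)) (hinP (k + 1))
      (hinP' k) (hc1 k).symm ht1 hta htb⟩
    by_contra htv
    rcases cover_compl h3 (hc k) (hc (k + 1)) (hc (k + 2)) (hc1 k) (hc1 (k + 1))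
      (hc2 k) htv with h5 | h5 | h5
    · exact htb h5
    · exact hta h5
    · exact houtP (k + 1) (h5 ▸ ht1)
  choose t htv hty htsub using ht
  have hne : ∀ k, t k ≠ t (k + 1) := by
    intro k heq
    have hsub : Pal U (yy v θ0 (k + 2)) ⊆ insert (c (k + 2)) (Pal U (yy v θ0 (k + 1))) := by
      intro m hm
      rcases htsub (k + 1) hm with h5 | h5 | h5
      · left; exact h5
      · right; rw [h5]; exact hinP (k + 1)
      · right
        rw [h5, ← heq]; exact hty k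
    have := h.lemmaX (u := yy v θ0 (k + 1)) (p := yy v θ0 (k + 2)) (v := yy v θ0 (k + 3))
      (hX (k + 1)) (by rw [dist_comm]; exact dist_yy_succ v θ0 (k + 1))
      (hle _ (dist_yy v θ0 _) (hX _)) hsub (dist_yy_succ v θ0 (k + 2)) (hinP' (k + 2))
    exact yy_not_line v θ0 (k + 1) this
  refine finB h hv h3 (θ0 + Real.pi / 3) t htv hne fun k => ?_
  rw [yy_shift]
  have hev : ∀ᶠ p in 𝓝 (yy v θ0 (k + 1)), c k ∈ Pal U p → 1 ≤ dist p (yy v θ0 k) := by
    refine arcB h (Q := (fun θ => yy v θ k) '' Icc θa θ0) (a0 := yy v θa k)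
      (isPreconnected_Icc.image _ (continuous_yy v k).continuousOn) ?_
      ⟨θ0, ⟨hθ.le, le_rfl⟩, rfl⟩ ⟨θa, ⟨le_rfl, hθ.le⟩, rfl⟩ ?_
    · rintro _ ⟨θ, hθm, rfl⟩
      exact harc k θ hθm
    · apply dist_sq_gt dist_nonneg
      rw [dist_yy_add]
      have e1 : (θa - θ0) + ((k : ℝ) - ((k + 1 : ℕ) : ℝ)) * (Real.pi / 3) =
          -(Real.pi / 3 + (θ0 - θa)) := by push_cast; ring
      rw [e1, Real.cos_neg]
      have e2 : Real.cos (Real.pi / 3 + (θ0 - θa)) < 1 / 2 := by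
        rw [← Real.cos_pi_div_three]
        apply Real.cos_lt_cos_of_nonneg_of_le_pi <;> linarith
      linarith
  exact fzB h (a := yy v θ0 (k + 2)) (b := yy v θ0 k) (c := c (k + 1)) (c' := c k)
    (by rw [dist_comm]; exact dist_yy v θ0 (k + 2)) (dist_yy_succ v θ0 (k + 1))
    (dist_yy v θ0 (k + 1)) (by linear_combination yy_rel v θ0 k) (htsub k) (hinP' (k + 1)) hev

/-- **FROZEN**: the unit circle about a three-coloured point of `X` is not frozen -/
theorem frozen (h : Mx U) (hK : Car U K) {v : ℂ} (hv : v ∈ XX U) (h3 : (Pal U v).ncard = 3)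
    (hle : ∀ y, dist y v = 1 → y ∈ XX U → (Pal U y).ncard ≤ 3) {c d e : Fin 6}
    (hcov : ∀ i, i ∉ Pal U v ↔ i = c ∨ i = d ∨ i = e) (hcd : c ≠ d) (hde : d ≠ e) (hce : c ≠ e)
    (σ : Fin 6 → Fin 6) (hσc : σ c = d) (hσd : σ d = e) (hσe : σ e = c)
    (hfr : ∀ y, dist y v = 1 → ∀ i, i ∉ Pal U v →
      (i ∈ K y ↔ σ i ∈ K (v + cis (Real.pi / 3) * (y - v)))) : False := by
  have hpi := Real.pi_gt_three
  -- facts on `σ`
  have hσT : ∀ i, i ∉ Pal U v → σ i ∉ Pal U v := by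
    intro i hi
    rcases (hcov i).1 hi with rfl | rfl | rfl
    · rw [hσc]; exact (hcov _).2 (Or.inr (Or.inl rfl))
    · rw [hσd]; exact (hcov _).2 (Or.inr (Or.inr rfl))
    · rw [hσe]; exact (hcov _).2 (Or.inl rfl)
  have hσ1 : ∀ i, i ∉ Pal U v → i ≠ σ i := by
    intro i hi
    rcases (hcov i).1 hi with rfl | rfl | rfl
    · rw [hσc]; exact hcd
    · rw [hσd]; exact hde
    · rw [hσe]; exact hce.symm
  have hσ2 : ∀ i, i ∉ Pal U v → i ≠ σ (σ i) := by
    intro i hi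
    rcases (hcov i).1 hi with rfl | rfl | rfl
    · rw [hσc, hσd]; exact hce
    · rw [hσd, hσe]; exact hcd.symm
    · rw [hσe, hσc]; exact hde.symm
  have hσ3 : ∀ i, i ∉ Pal U v → σ (σ (σ i)) = i := by
    intro i hi
    rcases (hcov i).1 hi with rfl | rfl | rfl
    · rw [hσc, hσd, hσe]
    · rw [hσd, hσe, hσc]
    · rw [hσe, hσc, hσd]
  have hσcov : ∀ i j, i ∉ Pal U v → j ∉ Pal U v → j = i ∨ j = σ i ∨ j = σ (σ i) := by
    intro i j hi hj
    exact cover_compl h3 hi (hσT i hi) (hσT _ (hσT i hi)) (hσ1 i hi) (hσ1 _ (hσT i hi))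
      (hσ2 i hi) hj
  -- the sets on the circle
  have hfr' : ∀ θ k i, i ∉ Pal U v → (i ∈ K (yy v θ k) ↔ σ i ∈ K (yy v θ (k + 1))) := by
    intro θ k i hi
    rw [yy_succ]
    exact hfr _ (dist_yy v θ k) i hi
  have hcis : ∀ θ, v + cis θ = yy v θ 0 := by intro θ; simp [yy]
  have hQne : ∀ θ, ∃ i, i ∉ Pal U v ∧ i ∈ K (yy v θ 0) := by
    intro θ
    obtain ⟨i, hi, hi'⟩ := Car.Q_ne h hK hv h3.le (dist_yy v θ 0)
    exact ⟨i, hi', hi⟩
  have hQall : ∀ θ, ∃ i, i ∉ Pal U v ∧ i ∉ K (yy v θ 0) := fun θ =>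
    Car.Q_ne_compl h hK hv h3 hle (dist_yy v θ 0)
  have husc : ∀ θ, ∀ᶠ θ' in 𝓝 θ, K (yy v θ' 0) ⊆ K (yy v θ 0) := fun θ =>
    (continuous_yy v 0).continuousAt.eventually (hK.usc (yy v θ 0))
  -- a pure point
  have hpure : ∃ θ m, m ∉ Pal U v ∧ ∀ i, i ∉ Pal U v → i ∈ K (yy v θ 0) → i = m := by
    by_contra hcon
    push Not at hcon
    -- two colours everywhere
    obtain ⟨i, hi, hi0⟩ := hQall 0
    have hclopen : IsClopen {θ | i ∉ K (yy v θ 0)} := by
      constructor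
      · rw [← isOpen_compl_iff, isOpen_iff_mem_nhds]
        intro θ hθ
        have hθ : i ∈ K (yy v θ 0) := not_not.1 hθ
        filter_upwards [husc θ] with θ' hθ' hcon2
        -- `K θ'` has two colours outside, both different from `i`
        have hcon2 : i ∉ K (yy v θ' 0) := hcon2
        obtain ⟨a, ha, ha'⟩ := hQne θ'
        obtain ⟨b, hb, hb', hba⟩ := hcon θ' a ha
        obtain ⟨m, hm, hm'⟩ := hQall θ
        rcases cover_compl h3 hi ha hb (fun h5 => hcon2 (h5 ▸ ha')) hba.symm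
          (fun h5 => hcon2 (h5 ▸ hb')) hm with h6 | h6 | h6
        · exact hm' (h6 ▸ hθ)
        · exact hm' (h6 ▸ hθ' ha')
        · exact hm' (h6 ▸ hθ' hb')
      · rw [isOpen_iff_mem_nhds]
        intro θ hθ
        have hθ : i ∉ K (yy v θ 0) := hθ
        filter_upwards [husc θ] with θ' hθ' hcon2
        exact hθ (hθ' hcon2)
    have huniv : {θ | i ∉ K (yy v θ 0)} = univ := hclopen.eq_univ ⟨0, hi0⟩
    have hall : ∀ θ, i ∉ K (yy v θ 0) := fun θ => by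
      have : θ ∈ {θ | i ∉ K (yy v θ 0)} := by rw [huniv]; trivial
      exact this
    -- then `σ i` is absent as well
    have h1 : σ i ∉ K (yy v 0 1) := fun h5 => by
      have := (hfr' 0 0 i hi).2 h5
      exact hall 0 this
    rw [show (1 : ℕ) = 0 + 1 from rfl, ← yy_shift] at h1
    obtain ⟨a, ha, ha'⟩ := hQne (0 + Real.pi / 3)
    obtain ⟨b, hb, hb', hba⟩ := hcon (0 + Real.pi / 3) a ha
    have hi1 := hall (0 + Real.pi / 3)
    have hcase : ∀ j, j ∉ Pal U v → j ∈ K (yy v (0 + Real.pi / 3) 0) → j = σ (σ i) := by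
      intro j hj hj'
      rcases hσcov i j hi hj with h6 | h6 | h6
      · exact absurd (h6 ▸ hj') hi1
      · exact absurd (h6 ▸ hj') h1
      · exact h6
    exact hba ((hcase b hb hb').trans (hcase a ha ha').symm)
  obtain ⟨θ1, m, hm, hm1⟩ := hpure
  -- first impure parameter
  set S := {θ | θ1 ≤ θ ∧ ∃ i, i ∉ Pal U v ∧ i ≠ m ∧ i ∈ K (yy v θ 0)} with hS
  have hSclosed : IsClosed S := by
    rw [← isOpen_compl_iff, isOpen_iff_mem_nhds]
    intro θ hθ
    by_cases hle1 : θ1 ≤ θ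
    · have hθ2 : ∀ i, i ∉ Pal U v → i ≠ m → i ∉ K (yy v θ 0) := by
        intro i hi him hik
        exact hθ ⟨hle1, i, hi, him, hik⟩
      filter_upwards [husc θ] with θ' hθ'
      rintro ⟨-, i, hi, him, hik⟩
      exact hθ2 i hi him (hθ' hik)
    · push Not at hle1
      filter_upwards [Iio_mem_nhds hle1] with θ' hθ'
      rintro ⟨h5, -⟩
      have hθ' : θ' < θ1 := hθ'
      linarith
  have hmK1 : m ∈ K (yy v θ1 0) := by
    obtain ⟨i, hi, hi'⟩ := hQne θ1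
    rwa [← hm1 i hi hi']
  have hSne : S.Nonempty := by
    refine ⟨θ1 + Real.pi / 3, by linarith, σ m, hσT m hm, (hσ1 m hm).symm, ?_⟩
    rw [yy_shift]
    exact (hfr' θ1 0 m hm).1 hmK1
  have hSbdd : BddBelow S := ⟨θ1, fun θ hθ => hθ.1⟩
  set θ0 := sInf S with hθ0
  have hθ0S : θ0 ∈ S := hSclosed.csInf_mem hSne hSbdd
  obtain ⟨h10, m', hm', hmm', hm'K⟩ := hθ0S
  have h10' : θ1 < θ0 := by
    rcases h10.lt_or_eq with h5 | h5
    · exact h5
    · exfalso
      rw [← h5] at hm'K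
      exact hmm' (hm1 m' hm' hm'K)
  have hpureI : ∀ θ, θ1 ≤ θ → θ < θ0 → m ∈ K (yy v θ 0) := by
    intro θ hθ1 hθ2
    have hnot : θ ∉ S := fun h5 => absurd (csInf_le hSbdd h5) (not_le.2 hθ2)
    obtain ⟨i, hi, hi'⟩ := hQne θ
    by_cases him : i = m
    · exact him ▸ hi'
    · exact absurd ⟨hθ1, i, hi, him, hi'⟩ hnot
  have hmK0 : m ∈ K (yy v θ0 0) := by
    have h5 : ∀ᶠ θ in 𝓝[<] θ0, K (yy v θ 0) ⊆ K (yy v θ0 0) :=
      mem_nhdsWithin_of_mem_nhds (husc θ0)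
    have h6 : ∀ᶠ θ in 𝓝[<] θ0, θ1 < θ := mem_nhdsWithin_of_mem_nhds (Ioi_mem_nhds h10')
    obtain ⟨θ, h7, h8, h9⟩ := (h5.and (h6.and self_mem_nhdsWithin)).exists
    exact h7 (hpureI θ h8.le h9)
  -- the left end of the arc
  set θa := max θ1 (θ0 - 1 / 2) with hθa
  have ha0 : θa < θ0 := max_lt h10' (by linarith)
  have ha1 : θ0 - θa ≤ 1 / 2 := by
    have := le_max_right θ1 (θ0 - 1 / 2); linarith
  have ha2 : θ1 ≤ θa := le_max_left _ _
  -- iterates
  set cc : ℕ → Fin 6 := fun k => σ^[k] m with hcc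
  have hcs : ∀ k, cc (k + 1) = σ (cc k) := fun k => Function.iterate_succ_apply' σ k m
  have hcT : ∀ k, cc k ∉ Pal U v := by
    intro k
    induction k with
    | zero => exact hm
    | succ k ih => rw [hcs]; exact hσT _ ih
  have hc1 : ∀ k, cc k ≠ cc (k + 1) := fun k => by rw [hcs]; exact hσ1 _ (hcT k)
  have hc2 : ∀ k, cc k ≠ cc (k + 2) := fun k => by
    rw [show k + 2 = k + 1 + 1 from rfl, hcs, hcs]; exact hσ2 _ (hcT k)
  have hc3 : ∀ k, cc (k + 3) = cc k := fun k => by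
    rw [show k + 3 = k + 1 + 1 + 1 from rfl, hcs, hcs, hcs]; exact hσ3 _ (hcT k)
  have hiter : ∀ θ k j, (cc j ∈ K (yy v θ 0) ↔ cc (j + k) ∈ K (yy v θ k)) := by
    intro θ k j
    induction k with
    | zero => rfl
    | succ k ih =>
      rw [ih, show j + (k + 1) = (j + k) + 1 from rfl, hcs]
      exact hfr' θ k _ (hcT _)
  have harcK : ∀ k, ∀ θ ∈ Icc θa θ0, cc k ∈ Pal U (yy v θ k) := by
    intro k θ hθ
    apply hK.sub
    have h5 : cc 0 ∈ K (yy v θ 0) := by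
      rcases hθ.2.lt_or_eq with h6 | h6
      · exact hpureI θ (ha2.trans hθ.1) h6
      · rw [h6]; exact hmK0
    have := (hiter θ k 0).1 h5
    rwa [Nat.zero_add] at this
  have hin : ∀ k, cc k ∈ K (yy v θ0 k) := fun k => by
    have := (hiter θ0 k 0).1 hmK0
    rwa [Nat.zero_add] at this
  obtain ⟨q, hq, hq'⟩ := hQall θ0
  -- the two cases
  rcases hσcov m m' hm hm' with h6 | h6 | h6
  · exact hmm' h6
  · -- `m' = σ m`
    have hm1' : cc 1 ∈ K (yy v θ0 0) := by rw [hcs 0]; exact h6 ▸ hm'K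
    have hm2' : cc 2 ∉ K (yy v θ0 0) := by
      rcases hσcov m q hm hq with h7 | h7 | h7
      · exact absurd (h7 ▸ hmK0) hq'
      · exact absurd (by rw [h7, ← h6]; exact hm'K) hq'
      · rw [show (2 : ℕ) = 1 + 1 from rfl, hcs, hcs 0]; exact h7 ▸ hq'
    refine caseA h hK hv h3 hle ha0 ha1 cc hcT hc1 hc2 hc3 hin (fun k => ?_) (fun k => ?_) harcK
    · have := (hiter θ0 k 1).1 hm1'
      rwa [add_comm] at this
    · intro h8
      apply hm2'
      rw [hiter θ0 k 2, add_comm]; exact h8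
  · -- `m' = σ (σ m)`
    have hm2' : cc 2 ∈ K (yy v θ0 0) := by
      rw [show (2 : ℕ) = 1 + 1 from rfl, hcs, hcs 0]; exact h6 ▸ hm'K
    have hm1' : cc 1 ∉ K (yy v θ0 0) := by
      rcases hσcov m q hm hq with h7 | h7 | h7
      · exact absurd (h7 ▸ hmK0) hq'
      · rw [hcs 0]; exact h7 ▸ hq'
      · exact absurd (by rw [h7, ← h6]; exact hm'K) hq'
    refine caseB h hK hv h3 hle ha0 ha1 cc hcT hc1 hc2 hc3 hin (fun k => ?_) (fun k => ?_) harcK
    · have := (hiter θ0 k 2).1 hm2'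
      rwa [add_comm] at this
    · intro h8
      apply hm1'
      rw [hiter θ0 k 1, add_comm]; exact h8

end Vale.Agent.P032.S5.H783
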